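import Vale.Agent.Lib.P043.Basic
import Vale.Agent.Lib.P043.Coloring

/-!
Periodization: a set that tiles against a family of sets of prime size can be replaced by
a periodic one.
-/

namespace Vale.Agent.Lib.P043.PQ

open Finset
open Vale.Agent.Lib.P043

variable {G : Type*} [AddCommGroup G]

open Classical in
/-- `D` tiles against `Q` exactly on `X`. -/
def Tiles (Q : Finset G) (D X : Set G) : Prop :=
  ∀ x, (Q.filter (fun q => x - q ∈ D)).card = if x ∈ X then 1 else 0

lemma finite_quot [Module.Finite ℤ G] {n : ℕ} (hn : 0 < n) :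
    Finite (G ⧸ (nsmulAddMonoidHom (α := G) n).range) := by
  have hfin : Module.Finite ℤ (G ⧸ (nsmulAddMonoidHom (α := G) n).range) :=
    Module.Finite.of_surjective (QuotientAddGroup.mk' _).toIntLinearMap
      (QuotientAddGroup.mk'_surjective _)
  apply Module.finite_of_fg_torsion
  intro x
  obtain ⟨g, rfl⟩ := QuotientAddGroup.mk_surjective x
  refine ⟨⟨(n : ℤ), ?_⟩, ?_⟩
  · apply mem_nonZeroDivisors_of_ne_zero
    exact_mod_cast hn.ne'
  · show (n : ℤ) • (QuotientAddGroup.mk g : G ⧸ (nsmulAddMonoidHom (α := G) n).range) = 0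
    rw [natCast_zsmul, ← QuotientAddGroup.mk_nsmul]
    exact (QuotientAddGroup.eq_zero_iff _).2 ⟨g, rfl⟩

section frob

variable {p : ℕ} [hp : Fact p.Prime]

lemma T_p_eq (Q : Finset G) (φ : G → ZMod p) :
    T Q p φ = ((act (ZMod p) (E (ZMod p) Q 1)) ^ p) φ := by
  rw [← map_pow]
  have h := E_pow_char (G := G) p Q 1 1
  rw [pow_one, mul_one] at h
  rw [h, act_E]

lemma pow_sub_one_apply {R : Type*} [Semiring R] {M : Type*} [AddCommMonoid M] [Module R M]
    (Θ : Module.End R M) (n : ℕ) (hn : 1 ≤ n) (φ : M) : (Θ ^ n) φ = (Θ ^ (n - 1)) (Θ φ) := by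
  obtain ⟨m, rfl⟩ : ∃ m, n = m + 1 := ⟨n - 1, by omega⟩
  rw [pow_succ, Module.End.mul_apply]
  simp

lemma T_one_pow_const (Q : Finset G) (c : ZMod p) (n : ℕ) :
    ((act (ZMod p) (E (ZMod p) Q 1)) ^ n) (fun _ => c) = fun _ => ((Q.card : ZMod p)) ^ n * c := by
  induction n with
  | zero => simp
  | succ n ih =>
    rw [pow_succ', Module.End.mul_apply, ih, act_E]
    funext x
    rw [T_const, pow_succ']
    ring

lemma T_one_pow_shift (Q : Finset G) (φ : G → ZMod p) (w : G) (hφ : ∀ x, φ (x + w) = φ x) (n : ℕ) :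
    ∀ x, ((act (ZMod p) (E (ZMod p) Q 1)) ^ n) φ (x + w) =
      ((act (ZMod p) (E (ZMod p) Q 1)) ^ n) φ x := by
  induction n with
  | zero => simpa using hφ
  | succ n ih =>
    intro x
    rw [pow_succ', Module.End.mul_apply, act_E, T_apply, T_apply]
    refine Finset.sum_congr rfl fun f _ => ?_
    have : x + w - 1 • f = (x - 1 • f) + w := by abel
    rw [this, ih]

open Classical in
/-- The Frobenius step. -/
lemma frob_invariant {Q : Finset G} (hQ : Q.card = p) {D X : Set G}
    (hX : ∀ x k, x + p • k ∈ X ↔ x ∈ X) (hD : Tiles Q D X) {v q₁ q₂ : G} (hv : v ∈ D)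
    (h₁ : q₁ ∈ Q) (h₂ : q₂ ∈ Q) : v + (p * p) • (q₁ - q₂) ∈ D := by
  have hpp := hp.out
  set u : G → ZMod p := fun x => if x ∈ D then 1 else 0 with hu
  set ξ₀ : G → ZMod p := fun x => if x ∈ X then 1 else 0 with hξ₀
  have hΘu : (act (ZMod p) (E (ZMod p) Q 1)) u = ξ₀ := by
    rw [act_E]
    funext x
    rw [T_apply]
    have h1 := hD x
    have h2 : ∑ f ∈ Q, u (x - 1 • f) = (((Q.filter (fun q => x - q ∈ D)).card : ℕ) : ZMod p) := by
      rw [Finset.card_filter]
      push_cast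
      refine Finset.sum_congr rfl fun f _ => ?_
      simp [hu]
    rw [h2, h1]
    simp only [hξ₀]
    split_ifs <;> simp
  set ξ : G → ZMod p := ((act (ZMod p) (E (ZMod p) Q 1)) ^ (p - 1)) ξ₀ with hξ
  have hTu : T Q p u = ξ := by
    rw [T_p_eq, pow_sub_one_apply _ p hpp.one_le, hΘu]
  have hξinv : ∀ (x k : G), ξ (x + p • k) = ξ x := by
    intro x k
    refine T_one_pow_shift Q ξ₀ (p • k) (fun y => ?_) (p - 1) x
    simp only [hξ₀, hX]
  set b : G → ZMod p := fun w => u (v + p • w) with hb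
  have hΘb : (act (ZMod p) (E (ZMod p) Q 1)) b = fun _ => ξ v := by
    rw [act_E]
    funext w
    rw [T_apply, ← hξinv v w, ← hTu, T_apply]
    refine Finset.sum_congr rfl fun f _ => ?_
    simp only [hb, one_smul, smul_sub]
    congr 1
    abel
  have hTb : T Q p b = fun _ => 0 := by
    rw [T_p_eq, pow_sub_one_apply _ p hpp.one_le, hΘb, T_one_pow_const, hQ]
    funext x
    have : ((p : ℕ) : ZMod p) = 0 := ZMod.natCast_self p
    rw [this, zero_pow (by have := hpp.two_le; omega), zero_mul]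
  -- the count
  set w₀ := p • q₁ with hw₀
  set S := Q.filter (fun q => v + p • (w₀ - p • q) ∈ D) with hS
  have h3 : ((S.card : ℕ) : ZMod p) = 0 := by
    have h4 := congrFun hTb w₀
    rw [T_apply] at h4
    rw [← h4, hS, Finset.card_filter]
    push_cast
    refine Finset.sum_congr rfl fun f _ => ?_
    simp [hb, hu]
  have h5 : p ∣ S.card := (ZMod.natCast_eq_zero_iff _ _).1 h3
  have h6 : q₁ ∈ S := by
    refine Finset.mem_filter.2 ⟨h₁, ?_⟩
    have : v + p • (w₀ - p • q₁) = v := by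
      rw [hw₀]
      simp
    rwa [this]
  have h7 : S.card = p := by
    apply le_antisymm
    · rw [← hQ]
      exact Finset.card_filter_le _ _
    · exact Nat.le_of_dvd (Finset.card_pos.2 ⟨q₁, h6⟩) h5
  have h8 : S = Q := by
    apply Finset.eq_of_subset_of_card_le (Finset.filter_subset _ _)
    rw [h7, hQ]
  have h9 : q₂ ∈ S := by rw [h8]; exact h₂
  have h10 := (Finset.mem_filter.1 h9).2
  have h11 : v + p • (w₀ - p • q₂) = v + (p * p) • (q₁ - q₂) := by
    simp only [hw₀, mul_smul, smul_sub]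
  rwa [h11] at h10

end frob

/-- The group generated by the differences of a family of sets. -/
def diffGroup (𝒬 : Set (Finset G)) : AddSubgroup G :=
  AddSubgroup.closure {d | ∃ Q ∈ 𝒬, ∃ q₁ ∈ Q, ∃ q₂ ∈ Q, d = q₁ - q₂}

/-- Replace a set invariant under a multiple of a subgroup by a periodic set with the same
pattern on every coset of the subgroup, up to translation by multiples of `M`. -/
lemma copy_periodic [Module.Finite ℤ G] {H : AddSubgroup G} {n m : ℕ} (hn : 0 < n) (hm : 0 < m)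
    {D : Set G} (hD : ∀ v ∈ D, ∀ h ∈ H, v + n • h ∈ D) :
    ∃ M : ℕ, 0 < M ∧ m ∣ M ∧ ∃ D' : Set G, (∀ x k, x + M • k ∈ D' ↔ x ∈ D') ∧
      ∀ x, ∃ k : G, ∀ h ∈ H, (x + h ∈ D' ↔ x + h - M • k ∈ D) := by
  classical
  set S : AddSubgroup G := H.map (nsmulAddMonoidHom n) with hS
  obtain ⟨e, he0, he⟩ := exists_sat_exponent S
  set M := e * m with hM
  have hMpos : 0 < M := Nat.mul_pos he0 hm
  have hSM : ∀ g : G, M • g ∈ H → M • g ∈ S := by
    intro g hg
    have h1 : n • (M • g) ∈ S := ⟨M • g, hg, rfl⟩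
    have h2 : (n * M) • g ∈ S := by rwa [mul_smul]
    have h3 : e • g ∈ S := he g (n * M) (Nat.mul_pos hn hMpos) h2
    have h4 : M • g = m • (e • g) := by
      rw [hM, mul_comm, mul_smul]
    rw [h4]
    exact S.nsmul_mem h3 m
  have hDS : ∀ s ∈ S, ∀ v, v ∈ D → v + s ∈ D := by
    rintro s ⟨h, hh, rfl⟩ v hv
    exact hD v hv h hh
  have hDS' : ∀ s ∈ S, ∀ v, v + s ∈ D ↔ v ∈ D := by
    intro s hs v
    constructor
    · intro h
      have := hDS (-s) (S.neg_mem hs) _ h
      simpa using this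
    · exact hDS s hs v
  set L : AddSubgroup G := H ⊔ (nsmulAddMonoidHom (α := G) M).range with hL
  let rep : G → G := fun x => Quotient.out (QuotientAddGroup.mk x : G ⧸ L)
  have hrep_mem : ∀ x, x - rep x ∈ L := by
    intro x
    have h1 : (QuotientAddGroup.mk (rep x) : G ⧸ L) = QuotientAddGroup.mk x := Quotient.out_eq _
    have h2 := QuotientAddGroup.eq.1 h1
    have h3 : x - rep x = -rep x + x := by abel
    rw [h3]
    exact h2
  have hrep_eq : ∀ x y, y ∈ L → rep (x + y) = rep x := by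
    intro x y hy
    have h1 : (QuotientAddGroup.mk (x + y) : G ⧸ L) = QuotientAddGroup.mk x := by
      rw [QuotientAddGroup.eq]
      have h2 : -(x + y) + x = -y := by abel
      rw [h2]
      exact L.neg_mem hy
    simp only [rep, h1]
  have hHL : ∀ h ∈ H, h ∈ L := fun h hh => AddSubgroup.mem_sup_left hh
  have hML : ∀ k : G, M • k ∈ L := fun k => AddSubgroup.mem_sup_right ⟨k, rfl⟩
  have hex : ∀ x, ∃ k : G, x - M • k - rep x ∈ H := by
    intro x
    obtain ⟨h, hh, z, ⟨k, rfl⟩, hz⟩ := AddSubgroup.mem_sup.1 (hrep_mem x)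
    refine ⟨k, ?_⟩
    have : x - M • k - rep x = h := by
      have h5 : h + M • k = x - rep x := hz
      have h6 : x - M • k - rep x = (x - rep x) - M • k := by abel
      rw [h6, ← h5]
      show h + (nsmulAddMonoidHom M) k - M • k = h
      simp
    rw [this]
    exact hh
  have huniq : ∀ x k k', x - M • k - rep x ∈ H → x - M • k' - rep x ∈ H →
      (x - M • k ∈ D ↔ x - M • k' ∈ D) := by
    intro x k k' h1 h2
    have h3 : M • (k - k') ∈ H := by
      have h4 := H.sub_mem h2 h1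
      have h5 : x - M • k' - rep x - (x - M • k - rep x) = M • (k - k') := by
        rw [smul_sub]
        abel
      rwa [h5] at h4
    have h6 := hSM _ h3
    have h7 : x - M • k' = (x - M • k) + M • (k - k') := by
      rw [smul_sub]
      abel
    rw [h7]
    exact (hDS' _ h6 _).symm
  refine ⟨M, hMpos, Dvd.intro_left e hM.symm, {x | ∃ k : G, x - M • k - rep x ∈ H ∧ x - M • k ∈ D},
    ?_, ?_⟩
  · intro x l
    have hr : rep (x + M • l) = rep x := hrep_eq x _ (hML l)
    simp only [Set.mem_ofPred_eq]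
    constructor
    · rintro ⟨k, h1, h2⟩
      refine ⟨k - l, ?_, ?_⟩
      · rw [hr] at h1
        have : x - M • (k - l) - rep x = x + M • l - M • k - rep x := by
          rw [smul_sub]
          abel
        rwa [this]
      · have : x - M • (k - l) = x + M • l - M • k := by
          rw [smul_sub]
          abel
        rwa [this]
    · rintro ⟨k, h1, h2⟩
      refine ⟨k + l, ?_, ?_⟩
      · rw [hr]
        have : x + M • l - M • (k + l) - rep x = x - M • k - rep x := by
          rw [smul_add]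
          abel
        rwa [this]
      · have : x + M • l - M • (k + l) = x - M • k := by
          rw [smul_add]
          abel
        rwa [this]
  · intro x
    obtain ⟨k₀, hk₀⟩ := hex x
    refine ⟨k₀, fun h hh => ?_⟩
    have hr : rep (x + h) = rep x := hrep_eq x h (hHL h hh)
    have hk₁ : x + h - M • k₀ - rep (x + h) ∈ H := by
      rw [hr]
      have : x + h - M • k₀ - rep x = (x - M • k₀ - rep x) + h := by abel
      rw [this]
      exact H.add_mem hk₀ hh
    simp only [Set.mem_ofPred_eq]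
    constructor
    · rintro ⟨k, h1, h2⟩
      exact (huniq _ k k₀ h1 hk₁).1 h2
    · intro h2
      exact ⟨k₀, hk₁, h2⟩

open Classical in
/-- One periodization step. -/
theorem periodize_one [Module.Finite ℤ G] {p : ℕ} (hp : p.Prime) (𝒬 : Set (Finset G))
    (h𝒬 : ∀ Q ∈ 𝒬, Q.card = p) {D X : Set G} (hX : ∀ x k, x + p • k ∈ X ↔ x ∈ X)
    (hD : ∀ Q ∈ 𝒬, Tiles Q D X) :
    ∃ M : ℕ, 0 < M ∧ ∃ D' : Set G, (∀ x k, x + M • k ∈ D' ↔ x ∈ D') ∧ ∀ Q ∈ 𝒬, Tiles Q D' X := by
  have : Fact p.Prime := ⟨hp⟩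
  have hinv2 : ∀ h ∈ diffGroup 𝒬, ∀ v ∈ D, v + (p * p) • h ∈ D ∧ v - (p * p) • h ∈ D := by
    intro h hh
    unfold diffGroup at hh
    induction hh using AddSubgroup.closure_induction with
    | mem d hd =>
      obtain ⟨Q, hQ, q₁, h₁, q₂, h₂, rfl⟩ := hd
      intro v hv
      refine ⟨frob_invariant (h𝒬 Q hQ) hX (hD Q hQ) hv h₁ h₂, ?_⟩
      have := frob_invariant (h𝒬 Q hQ) hX (hD Q hQ) hv h₂ h₁
      have e : v - (p * p) • (q₁ - q₂) = v + (p * p) • (q₂ - q₁) := by
        rw [smul_sub, smul_sub]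
        abel
      rwa [e]
    | zero =>
      intro v hv
      simpa using hv
    | add a b _ _ iha ihb =>
      intro v hv
      constructor
      · have := (ihb _ (iha v hv).1).1
        rwa [add_assoc, ← smul_add] at this
      · have := (ihb _ (iha v hv).2).2
        have e : v - (p * p) • a - (p * p) • b = v - (p * p) • (a + b) := by
          rw [smul_add]
          abel
        rwa [e] at this
    | neg a _ iha =>
      intro v hv
      constructor
      · have := (iha v hv).2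
        rwa [smul_neg, ← sub_eq_add_neg]
      · have := (iha v hv).1
        rwa [smul_neg, sub_neg_eq_add]
  have hinv : ∀ v ∈ D, ∀ h ∈ diffGroup 𝒬, v + (p * p) • h ∈ D := fun v hv h hh =>
    (hinv2 h hh v hv).1
  obtain ⟨M, hM, hpM, D', hper, hcopy⟩ := copy_periodic (Nat.mul_pos hp.pos hp.pos) hp.pos hinv
  refine ⟨M, hM, D', hper, fun Q hQ x => ?_⟩
  have hQne : Q.Nonempty := Finset.card_pos.1 (by rw [h𝒬 Q hQ]; exact hp.pos)
  obtain ⟨q₀, hq₀⟩ := hQne
  obtain ⟨k, hk⟩ := hcopy (x - q₀)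
  have h1 : Q.filter (fun q => x - q ∈ D') = Q.filter (fun q => (x - M • k) - q ∈ D) := by
    refine Finset.filter_congr fun q hq => ?_
    have hd : q₀ - q ∈ diffGroup 𝒬 :=
      AddSubgroup.subset_closure ⟨Q, hQ, q₀, hq₀, q, hq, rfl⟩
    have h2 := hk _ hd
    have e1 : x - q₀ + (q₀ - q) = x - q := by abel
    have e2 : x - q - M • k = x - M • k - q := by abel
    rw [e1, e2] at h2
    exact h2
  rw [h1, hD Q hQ (x - M • k)]
  obtain ⟨c, hc⟩ := hpM
  have h3 : x - M • k ∈ X ↔ x ∈ X := by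
    have : x = (x - M • k) + p • (c • k) := by
      rw [hc, mul_smul]
      abel
    conv_rhs => rw [this]
    exact (hX _ _).symm
  simp only [h3]

open Classical in
/-- Averaging over the finite quotient by `q`: a `q`-periodic nonempty set has a fixed number
of classes after any translation. -/
lemma exists_count_quot [Module.Finite ℤ G] {q : ℕ} (hq : 0 < q) {Z : Set G}
    (hZ : ∀ x k, x + q • k ∈ Z ↔ x ∈ Z) (hne : Z.Nonempty) :
    ∃ (R : Finset G) (n : ℕ), 0 < n ∧ ∀ g : G, (R.filter (fun y => y - g ∈ Z)).card = n := by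
  set K := (nsmulAddMonoidHom (α := G) q).range with hK
  have hfin : Finite (G ⧸ K) := finite_quot hq
  have hft : Fintype (G ⧸ K) := Fintype.ofFinite _
  have hmem : ∀ x y : G, (QuotientAddGroup.mk x : G ⧸ K) = QuotientAddGroup.mk y →
      (x ∈ Z ↔ y ∈ Z) := by
    intro x y h
    obtain ⟨k, hk⟩ := QuotientAddGroup.eq.1 h
    have h1 : y = x + q • k := by
      have : q • k = -x + y := hk
      rw [this]
      abel
    rw [h1, hZ]
  let zz : G ⧸ K → Prop := fun κ => Quotient.out κ ∈ Z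
  have hzz : ∀ y : G, zz (QuotientAddGroup.mk y) ↔ y ∈ Z := by
    intro y
    exact hmem _ _ (Quotient.out_eq _)
  set R : Finset G := Finset.univ.image (fun κ : G ⧸ K => Quotient.out κ) with hR
  have hinj : Function.Injective (fun κ : G ⧸ K => Quotient.out κ) :=
    Quotient.out_injective
  have hcount : ∀ g : G, (R.filter (fun y => y - g ∈ Z)).card =
      (Finset.univ.filter zz).card := by
    intro g
    rw [hR, Finset.filter_image, Finset.card_image_of_injective _ hinj]
    apply Finset.card_bij (fun κ _ => κ - (QuotientAddGroup.mk g : G ⧸ K))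
    · intro κ hκ
      have h1 := (Finset.mem_filter.1 hκ).2
      refine Finset.mem_filter.2 ⟨Finset.mem_univ _, ?_⟩
      have h2 : κ - (QuotientAddGroup.mk g : G ⧸ K) = QuotientAddGroup.mk (Quotient.out κ - g) := by
        rw [QuotientAddGroup.mk_sub]
        congr 1
        exact (Quotient.out_eq κ).symm
      rw [h2, hzz]
      exact h1
    · intro a _ b _ h
      exact sub_left_inj.1 h
    · intro κ hκ
      refine ⟨κ + QuotientAddGroup.mk g, ?_, by simp⟩
      refine Finset.mem_filter.2 ⟨Finset.mem_univ _, ?_⟩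
      have h1 := (Finset.mem_filter.1 hκ).2
      have h2 : κ = QuotientAddGroup.mk (Quotient.out (κ + QuotientAddGroup.mk g) - g) := by
        rw [QuotientAddGroup.mk_sub]
        have : (QuotientAddGroup.mk (Quotient.out (κ + QuotientAddGroup.mk g)) : G ⧸ K) =
            κ + QuotientAddGroup.mk g := Quotient.out_eq _
        rw [this]
        simp
      rw [h2, hzz] at h1
      exact h1
  obtain ⟨z₀, hz₀⟩ := hne
  refine ⟨R, (Finset.univ.filter zz).card, ?_, hcount⟩
  exact Finset.card_pos.2 ⟨QuotientAddGroup.mk z₀, Finset.mem_filter.2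
    ⟨Finset.mem_univ _, (hzz z₀).2 hz₀⟩⟩

open Classical in
/-- The periodization theorem. -/
theorem periodization [Module.Finite ℤ G] {F : Finset G} {p q : ℕ} (hp : p.Prime) (hq : q.Prime)
    (hF : F.card = p * q) {D B X Z : Set G}
    (hX : ∀ x k, x + p • k ∈ X ↔ x ∈ X) (hZ : ∀ x k, x + q • k ∈ Z ↔ x ∈ Z)
    (hN : ∀ w₁ w₂, (F.filter (fun f => w₁ - f ∈ D ∧ w₂ - f ∈ B)).card =
      if w₁ ∈ X ∧ w₂ ∈ Z then 1 else 0)
    (hB : ∀ w₂ ∈ Z, (F.filter (fun f => w₂ - f ∈ B)).card = p) :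
    ∃ A' : Set G, (∀ x, (F.filter (fun f => x - f ∈ A')).card = if x ∈ X ∧ x ∈ Z then 1 else 0) ∧
      ∃ M : ℕ, 0 < M ∧ ∀ x k, x + M • k ∈ A' ↔ x ∈ A' := by
  by_cases hne : X.Nonempty ∧ Z.Nonempty
  swap
  · refine ⟨∅, fun x => ?_, 1, one_pos, fun x k => by simp⟩
    have h1 : ¬ (x ∈ X ∧ x ∈ Z) := fun h => hne ⟨⟨x, h.1⟩, ⟨x, h.2⟩⟩
    rw [if_neg h1]
    simp
  obtain ⟨⟨x₀, hx₀⟩, ⟨z₀, hz₀⟩⟩ := hne
  set Q : G → Finset G := fun w => F.filter (fun f => w - f ∈ B) with hQdef
  have h00 := hN x₀ z₀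
  rw [if_pos ⟨hx₀, hz₀⟩] at h00
  obtain ⟨f₀, hf₀⟩ := Finset.card_pos.1 (by rw [h00]; exact one_pos)
  obtain ⟨hf₀F, hd₀, hb₀⟩ := Finset.mem_filter.1 hf₀
  set d₀ := x₀ - f₀ with hd₀def
  set b₀ := z₀ - f₀ with hb₀def
  have hpos : ∀ {w₁ w₂ : G} {f : G}, f ∈ F → w₁ - f ∈ D → w₂ - f ∈ B → w₁ ∈ X ∧ w₂ ∈ Z := by
    intro w₁ w₂ f hf h1 h2
    by_contra hcon
    have h3 := hN w₁ w₂
    rw [if_neg hcon, Finset.card_eq_zero] at h3
    have h4 : f ∈ F.filter (fun f => w₁ - f ∈ D ∧ w₂ - f ∈ B) := Finset.mem_filter.2 ⟨hf, h1, h2⟩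
    rw [h3] at h4
    simp at h4
  have hQZ : ∀ {w f : G}, f ∈ Q w → w ∈ Z := by
    intro w f hf
    obtain ⟨hfF, hfB⟩ := Finset.mem_filter.1 hf
    exact (hpos (w₁ := d₀ + f) hfF (by simpa using hd₀) hfB).2
  have hQempty : ∀ w, w ∉ Z → Q w = ∅ := by
    intro w hw
    rw [Finset.eq_empty_iff_forall_notMem]
    intro f hf
    exact hw (hQZ hf)
  have hQmem : ∀ f ∈ F, ∃ w ∈ Z, f ∈ Q w := by
    intro f hf
    have h1 : f ∈ Q (b₀ + f) := Finset.mem_filter.2 ⟨hf, by simpa using hb₀⟩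
    exact ⟨_, hQZ h1, h1⟩
  have hQcard : ∀ w, (Q w).card = if w ∈ Z then p else 0 := by
    intro w
    by_cases hw : w ∈ Z
    · rw [if_pos hw]
      exact hB w hw
    · rw [if_neg hw, hQempty w hw]
      simp
  -- the first step
  have hD : ∀ Q' ∈ Q '' Z, Tiles Q' D X := by
    rintro _ ⟨w, hw, rfl⟩ x
    have h1 : (Q w).filter (fun q => x - q ∈ D) = F.filter (fun f => x - f ∈ D ∧ w - f ∈ B) := by
      ext f
      simp only [hQdef, Finset.mem_filter]
      tauto
    rw [h1, hN]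
    simp [hw]
  obtain ⟨M₁, hM₁, D', hper₁, hT₁⟩ := periodize_one hp (Q '' Z)
    (by rintro _ ⟨w, hw, rfl⟩; exact hB w hw) hX hD
  set P : G → Finset G := fun w => F.filter (fun f => w - f ∈ D') with hPdef
  have hPB : ∀ w₁ ∈ X, ∀ y, ((P w₁).filter (fun g => y - g ∈ B)).card = if y ∈ Z then 1 else 0 := by
    intro w₁ hw₁ y
    have h1 : (P w₁).filter (fun g => y - g ∈ B) = (Q y).filter (fun q => w₁ - q ∈ D') := by
      ext f
      simp only [hPdef, hQdef, Finset.mem_filter]
      tauto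
    rw [h1]
    by_cases hy : y ∈ Z
    · rw [hT₁ _ ⟨y, hy, rfl⟩ w₁, if_pos hw₁, if_pos hy]
    · rw [hQempty y hy, if_neg hy]
      simp
  have hPcard : ∀ w₁ ∈ X, (P w₁).card = q := by
    intro w₁ hw₁
    set P₀ := P w₁ with hP₀
    have hkey : ∀ y, p * (P₀.filter (fun g => y - g ∈ Z)).card =
        (F.filter (fun f => y - f ∈ Z)).card := by
      intro y
      have h1 : ∑ g ∈ P₀, (Q (y - g)).card = p * (P₀.filter (fun g => y - g ∈ Z)).card := by
        simp_rw [hQcard]
        rw [Finset.card_filter, Finset.mul_sum]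
        refine Finset.sum_congr rfl fun g _ => ?_
        split_ifs <;> simp
      have h2 : ∑ g ∈ P₀, (Q (y - g)).card = ∑ f ∈ F, (P₀.filter (fun g => (y - f) - g ∈ B)).card := by
        simp only [hQdef, Finset.card_filter]
        rw [Finset.sum_comm]
        refine Finset.sum_congr rfl fun f _ => Finset.sum_congr rfl fun g _ => ?_
        have : y - g - f = y - f - g := by abel
        rw [this]
      have hPB' : ∀ y, (P₀.filter (fun g => y - g ∈ B)).card = if y ∈ Z then 1 else 0 :=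
        hPB w₁ hw₁
      rw [← h1, h2]
      simp_rw [hPB']
      rw [Finset.card_filter]
    obtain ⟨R, n, hn, hR⟩ := exists_count_quot hq.pos hZ ⟨z₀, hz₀⟩
    have h3 : ∑ y ∈ R, p * (P₀.filter (fun g => y - g ∈ Z)).card = p * (P₀.card * n) := by
      rw [← Finset.mul_sum]
      congr 1
      simp only [Finset.card_filter]
      rw [Finset.sum_comm]
      simp_rw [← Finset.card_filter, hR]
      simp
    have h4 : ∑ y ∈ R, (F.filter (fun f => y - f ∈ Z)).card = F.card * n := by
      simp only [Finset.card_filter]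
      rw [Finset.sum_comm]
      simp_rw [← Finset.card_filter, hR]
      simp
    have h5 : p * (P₀.card * n) = p * q * n := by
      rw [← h3, ← hF, ← h4]
      exact Finset.sum_congr rfl fun y _ => hkey y
    have h6 : P₀.card * n = q * n := by
      have : p * (P₀.card * n) = p * (q * n) := by rw [h5, mul_assoc]
      exact Nat.eq_of_mul_eq_mul_left hp.pos this
    exact Nat.eq_of_mul_eq_mul_right hn h6
  have hB' : ∀ P' ∈ P '' X, Tiles P' B Z := by
    rintro _ ⟨w, hw, rfl⟩ y
    exact hPB w hw y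
  obtain ⟨M₂, hM₂, B', hper₂, hT₂⟩ := periodize_one hq (P '' X)
    (by rintro _ ⟨w, hw, rfl⟩; exact hPcard w hw) hZ hB'
  obtain ⟨A', hA'⟩ : ∃ A' : Set G, A' = D' ∩ B' := ⟨_, rfl⟩
  refine ⟨A', fun x => ?_, M₁ * M₂, Nat.mul_pos hM₁ hM₂, fun x k => ?_⟩
  · by_cases hx : x ∈ X
    · have h1 : F.filter (fun f => x - f ∈ A') = (P x).filter (fun g => x - g ∈ B') := by
        ext f
        simp only [hPdef, hA', Finset.mem_filter, Set.mem_inter_iff]
        tauto
      rw [h1, hT₂ _ ⟨x, hx, rfl⟩ x]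
      simp [hx]
    · have h1 : F.filter (fun f => x - f ∈ A') = ∅ := by
        rw [Finset.filter_eq_empty_iff, hA']
        rintro f hf ⟨h2, _⟩
        obtain ⟨w, hw, hfw⟩ := hQmem f hf
        have h3 := hT₁ _ ⟨w, hw, rfl⟩ x
        rw [if_neg hx, Finset.card_eq_zero] at h3
        have h4 : f ∈ (Q w).filter (fun q => x - q ∈ D') := Finset.mem_filter.2 ⟨hfw, h2⟩
        rw [h3] at h4
        simp at h4
      rw [h1]
      simp [hx]
  · simp only [hA', Set.mem_inter_iff]
    rw [mul_smul]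
    have e1 : x + M₁ • (M₂ • k) ∈ D' ↔ x ∈ D' := hper₁ x _
    have e2 : x + M₁ • (M₂ • k) ∈ B' ↔ x ∈ B' := by
      rw [smul_comm]
      exact hper₂ x _
    rw [e1, e2]

end Vale.Agent.Lib.P043.PQ
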