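import Vale.Agent.Lib.P043.PQ.Limit
import Vale.Agent.Lib.P043.PQ.Periodize

/-!
Assembling the periodic tiling of a tile of size `p * q` from the structured tiling.
-/

namespace Vale.Agent.Lib.P043.PQ

open Finset
open Vale.Agent.Lib.P043

variable {G : Type*} [AddCommGroup G]

section

variable {F : Finset G} {A : Set G} {p q t t' : ℕ}

open Classical in
/-- The periodic piece attached to one class of the relation. -/
theorem exists_piece [Module.Finite ℤ G] (S : Setup F A p q) (ht : PType p q t) (ht' : PType q p t')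
    {c c' : ℕ} (htc : t = 1 + q * c) (htc' : t' = 1 + p * c')
    {r : Setoid (QQ G (p * q))}
    (hS3 : ∀ a ∈ A, ∀ f ∈ F, ∀ g ∈ F, r (toQ (p * q) (a + t • f + t' • g)) (toQ (p * q) a))
    (hS2 : ∀ x₁ x₂ x₃ u v : G, r (toQ (p * q) x₁) (toQ (p * q) x₂) → x₃ = x₁ + p • u →
      x₃ = x₂ + q • v → r (toQ (p * q) x₃) (toQ (p * q) x₁))
    (hS4 : ∀ x y : G, r (toQ (p * q) x) (toQ (p * q) y) →
      (F.filter (fun f => (∃ g ∈ F, x - t' • f - t • g ∈ A) ∧
        (∃ g ∈ F, y - t • f - t' • g ∈ A))).card = 1) (xs : G) :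
    ∃ A' : Set G, (∀ x, (F.filter (fun f => x - f ∈ A')).card =
        if r (toQ (p * q) x) (toQ (p * q) xs) then 1 else 0) ∧
      ∃ M : ℕ, 0 < M ∧ ∀ x k, x + M • k ∈ A' ↔ x ∈ A' := by
  set Rel : G → Prop := fun x => r (toQ (p * q) x) (toQ (p * q) xs) with hRel
  obtain ⟨d, hd⟩ := ht.dvd
  obtain ⟨d', hd'⟩ := ht'.dvd
  set E : Set G := {z | ∃ a ∈ A, ∃ g ∈ F, z = a + t • g ∧ Rel a} with hE
  set E' : Set G := {z | ∃ a ∈ A, ∃ g ∈ F, z = a + t' • g ∧ Rel a} with hE'
  set D : Set G := {w | t • xs + t' • w ∈ E} with hD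
  set B : Set G := {w | t' • xs + t • w ∈ E'} with hB
  set X : Set G := {w | Rel (t • xs + t' • w)} with hX
  set Z : Set G := {w | Rel (t' • xs + t • w)} with hZ
  -- membership in the pieces
  have L1 : ∀ z f, f ∈ F → z - t' • f ∈ E → Rel z := by
    rintro z f hf ⟨a, ha, g, hg, hz, hRa⟩
    have h1 := hS3 a ha g hg f hf
    have e : a + t • g + t' • f = z := by rw [← hz]; abel
    rw [e] at h1
    exact r.trans h1 hRa
  have L2 : ∀ z f, f ∈ F → Rel z → (z - t' • f ∈ E ↔ ∃ g ∈ F, z - t' • f - t • g ∈ A) := by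
    intro z f hf hz
    constructor
    · rintro ⟨a, ha, g, hg, hz', _⟩
      refine ⟨g, hg, ?_⟩
      rw [hz']
      simpa using ha
    · rintro ⟨g, hg, hzA⟩
      refine ⟨_, hzA, g, hg, by abel, ?_⟩
      have h1 := hS3 _ hzA g hg f hf
      have e : z - t' • f - t • g + t • g + t' • f = z := by abel
      rw [e] at h1
      exact r.trans (r.symm h1) hz
  have L1' : ∀ z f, f ∈ F → z - t • f ∈ E' → Rel z := by
    rintro z f hf ⟨a, ha, g, hg, hz, hRa⟩
    have h1 := hS3 a ha f hf g hg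
    have e : a + t • f + t' • g = z := by
      have : z = a + t' • g + t • f := by rw [← hz]; abel
      rw [this]
      abel
    rw [e] at h1
    exact r.trans h1 hRa
  have L2' : ∀ z f, f ∈ F → Rel z → (z - t • f ∈ E' ↔ ∃ g ∈ F, z - t • f - t' • g ∈ A) := by
    intro z f hf hz
    constructor
    · rintro ⟨a, ha, g, hg, hz', _⟩
      refine ⟨g, hg, ?_⟩
      rw [hz']
      simpa using ha
    · rintro ⟨g, hg, hzA⟩
      refine ⟨_, hzA, g, hg, by abel, ?_⟩
      have h1 := hS3 _ hzA f hf g hg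
      have e : z - t • f - t' • g + t • f + t' • g = z := by abel
      rw [e] at h1
      exact r.trans (r.symm h1) hz
  have eD : ∀ w f, (w - f ∈ D ↔ (t • xs + t' • w) - t' • f ∈ E) := by
    intro w f
    have e : t • xs + t' • (w - f) = (t • xs + t' • w) - t' • f := by
      rw [smul_sub]
      abel
    show t • xs + t' • (w - f) ∈ E ↔ _
    rw [e]
  have eB : ∀ w f, (w - f ∈ B ↔ (t' • xs + t • w) - t • f ∈ E') := by
    intro w f
    have e : t' • xs + t • (w - f) = (t' • xs + t • w) - t • f := by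
      rw [smul_sub]
      abel
    show t' • xs + t • (w - f) ∈ E' ↔ _
    rw [e]
  have hXinv : ∀ x k, x + p • k ∈ X ↔ x ∈ X := by
    intro x k
    show Rel _ ↔ Rel _
    have e : t • xs + t' • (x + p • k) = (t • xs + t' • x) + (p * q) • (d' • k) := by
      rw [smul_add, hd', smul_smul, smul_smul, add_assoc]
      congr 3
      ring
    rw [e]
    simp only [hRel]
    rw [toQ_add_nsmul]
  have hZinv : ∀ x k, x + q • k ∈ Z ↔ x ∈ Z := by
    intro x k
    show Rel _ ↔ Rel _
    have e : t' • xs + t • (x + q • k) = (t' • xs + t • x) + (p * q) • (d • k) := by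
      rw [smul_add, hd, smul_smul, smul_smul, add_assoc]
      congr 3
      ring
    rw [e]
    simp only [hRel]
    rw [toQ_add_nsmul]
  have hNcount : ∀ w₁ w₂, (F.filter (fun f => w₁ - f ∈ D ∧ w₂ - f ∈ B)).card =
      if w₁ ∈ X ∧ w₂ ∈ Z then 1 else 0 := by
    intro w₁ w₂
    by_cases h : w₁ ∈ X ∧ w₂ ∈ Z
    · rw [if_pos h]
      have hxy : r (toQ (p * q) (t • xs + t' • w₁)) (toQ (p * q) (t' • xs + t • w₂)) :=
        r.trans h.1 (r.symm h.2)
      rw [← hS4 _ _ hxy]
      congr 1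
      refine Finset.filter_congr fun f hf => ?_
      rw [eD, eB, L2 _ f hf h.1, L2' _ f hf h.2]
    · rw [if_neg h, Finset.card_eq_zero, Finset.filter_eq_empty_iff]
      rintro f hf ⟨h1, h2⟩
      exact h ⟨L1 _ f hf ((eD _ _).1 h1), L1' _ f hf ((eB _ _).1 h2)⟩
  have hBcount : ∀ w₂ ∈ Z, (F.filter (fun f => w₂ - f ∈ B)).card = p := by
    intro w₂ hw₂
    set y := t' • xs + t • w₂ with hy
    obtain ⟨h₀, ⟨hh₀, ha₀⟩, _⟩ := S.existsUnique_add ht ht' y
    have hfil : F.filter (fun f => w₂ - f ∈ B) = Line F A t (y - (t + t') • h₀) h₀ := by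
      ext f
      rw [Finset.mem_filter, ← (S.mem_line_iff ht ht' ha₀ hh₀ f).2, sub_add_cancel]
      refine and_congr_right fun hf => ?_
      rw [eB, L2' _ f hf hw₂]
    rw [hfil]
    exact (S.rect ht ht' ha₀ hh₀ hh₀).1
  have hXZ : ∀ x, (x ∈ X ∧ x ∈ Z) ↔ Rel x := by
    intro x
    constructor
    · rintro ⟨h1, h2⟩
      have h12 : r (toQ (p * q) (t • xs + t' • x)) (toQ (p * q) (t' • xs + t • x)) :=
        r.trans h1 (r.symm h2)
      have h3 := hS2 _ _ x (-(d • xs + c' • x)) (-(d' • xs + c • x)) h12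
        (by
          nth_rewrite 1 [hd]
          rw [htc', smul_neg, smul_add, add_smul, mul_smul, mul_smul, one_smul]
          abel)
        (by
          nth_rewrite 1 [hd']
          rw [htc, smul_neg, smul_add, add_smul, mul_smul, mul_smul, one_smul]
          abel)
      exact r.trans h3 h1
    · intro hx
      constructor
      · have h3 := hS2 x xs (t • xs + t' • x) (d • xs + c' • x) (c • xs + d' • x) hx
          (by
            nth_rewrite 1 [hd]
            rw [htc', smul_add, add_smul, mul_smul, mul_smul, one_smul]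
            abel)
          (by
            nth_rewrite 1 [htc]
            rw [hd', smul_add, add_smul, mul_smul, mul_smul, one_smul]
            abel)
        exact r.trans h3 hx
      · have h3 := hS2 xs x (t' • xs + t • x) (c' • xs + d • x) (d' • xs + c • x) (r.symm hx)
          (by
            nth_rewrite 1 [htc']
            rw [hd, smul_add, add_smul, mul_smul, mul_smul, one_smul]
            abel)
          (by
            nth_rewrite 1 [hd']
            rw [htc, smul_add, add_smul, mul_smul, mul_smul, one_smul]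
            abel)
        exact h3
  obtain ⟨A', hA', M, hM, hper⟩ := periodization S.hp S.hq S.card hXinv hZinv hNcount hBcount
  refine ⟨A', fun x => ?_, M, hM, hper⟩
  rw [hA']
  simp only [hXZ x, hRel]

open Classical in
/-- Main theorem in a finitely generated group generated by the tile. -/
theorem main_gen_pq [Module.Finite ℤ G] (hp : p.Prime) (hq : q.Prime) (hne : p ≠ q)
    (hF : F.card = p * q) (h0 : (0 : G) ∈ F) (hgen : AddSubgroup.closure (F : Set G) = ⊤)
    {A₀ : Set G} (hA₀ : ∀ g, ∃! f, f ∈ F ∧ g - f ∈ A₀) :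
    ∃ A' : Set G, (∀ g, ∃! f, f ∈ F ∧ g - f ∈ A') ∧
      ∃ M : ℕ, 0 < M ∧ ∀ g k, g + M • k ∈ A' ↔ g ∈ A' := by
  have hcop : Nat.Coprime p q := (Nat.coprime_primes hp hq).2 hne
  obtain ⟨m, -, hm⟩ := Nat.exists_mul_mod_eq_one_of_coprime hcop hq.one_lt
  obtain ⟨m', -, hm'⟩ := Nat.exists_mul_mod_eq_one_of_coprime hcop.symm hp.one_lt
  set t := p * m with ht
  set t' := q * m' with ht'
  have hqt : t = 1 + q * (t / q) := by
    have := Nat.div_add_mod t q
    rw [hm] at this
    omega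
  have hpt' : t' = 1 + p * (t' / p) := by
    have := Nat.div_add_mod t' p
    rw [hm'] at this
    omega
  have hT : PType p q t := ⟨Dvd.intro _ rfl, fun h => by
    have h1 : t % q = 0 := Nat.mod_eq_zero_of_dvd h
    omega⟩
  have hT' : PType q p t' := ⟨Dvd.intro _ rfl, fun h => by
    have h1 : t' % p = 0 := Nat.mod_eq_zero_of_dvd h
    omega⟩
  obtain ⟨A, r, hA, hS3, hS2, hS4⟩ := exists_structured hp hq hne hF hT hT' h0 hgen hA₀
  have S : Setup F A p q := ⟨hp, hq, hne, hF, hA⟩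
  have hpiece := fun xs => exists_piece S hT hT' hqt hpt' hS3 hS2 hS4 xs
  choose B hB M hM hper using hpiece
  have hpq : 0 < p * q := Nat.mul_pos hp.pos hq.pos
  have hfinQ := finite_quot' (G := G) hpq
  -- representatives of the classes
  let cl : Quotient r → G := fun ℓ => Quotient.out (Quotient.out ℓ)
  have hcl : ∀ ℓ, (Quotient.mk r (toQ (p * q) (cl ℓ))) = ℓ := by
    intro ℓ
    have h1 : toQ (p * q) (cl ℓ) = Quotient.out ℓ := Quotient.out_eq _
    rw [h1]
    exact Quotient.out_eq ℓ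
  have hfinC : Finite (Quotient r) := Quotient.finite _
  let _ := Fintype.ofFinite (Quotient r)
  set A' : Set G := {x | ∃ ℓ, x ∈ B (cl ℓ)} with hA'
  set N : ℕ := ∏ ℓ, M (cl ℓ) with hN
  have hNpos : 0 < N := Finset.prod_pos fun ℓ _ => hM _
  refine ⟨A', fun g => ?_, N, hNpos, fun g k => ?_⟩
  · set ℓ₀ : Quotient r := Quotient.mk r (toQ (p * q) g) with hℓ₀
    have hrel : r (toQ (p * q) g) (toQ (p * q) (cl ℓ₀)) := by
      have h1 := hcl ℓ₀
      exact Quotient.exact (h1.trans hℓ₀).symm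
    have hcard := hB (cl ℓ₀) g
    rw [if_pos hrel] at hcard
    obtain ⟨f, hf⟩ := Finset.card_eq_one.1 hcard
    have hfmem : f ∈ F.filter (fun f => g - f ∈ B (cl ℓ₀)) := by
      rw [hf]
      exact Finset.mem_singleton_self f
    have hforce : ∀ f' ∈ F, ∀ ℓ, g - f' ∈ B (cl ℓ) → ℓ = ℓ₀ := by
      intro f' hf' ℓ hℓ
      have hc := hB (cl ℓ) g
      have hnz : (F.filter (fun f => g - f ∈ B (cl ℓ))).card ≠ 0 :=
        Finset.card_ne_zero_of_mem (Finset.mem_filter.2 ⟨hf', hℓ⟩)
      have hr : r (toQ (p * q) g) (toQ (p * q) (cl ℓ)) := by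
        by_contra hcon
        rw [if_neg hcon] at hc
        exact hnz hc
      have h1 := hcl ℓ
      rw [← h1, hℓ₀]
      exact Quotient.sound (r.symm hr)
    refine ⟨f, ⟨(Finset.mem_filter.1 hfmem).1, ℓ₀, (Finset.mem_filter.1 hfmem).2⟩, ?_⟩
    rintro f' ⟨hf', ℓ, hℓ⟩
    have h2 := hforce f' hf' ℓ hℓ
    rw [h2] at hℓ
    have h3 : f' ∈ F.filter (fun f => g - f ∈ B (cl ℓ₀)) := Finset.mem_filter.2 ⟨hf', hℓ⟩
    rw [hf] at h3
    exact Finset.mem_singleton.1 h3
  · have hdiv : ∀ ℓ, ∃ e, N = M (cl ℓ) * e := fun ℓ =>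
      Finset.dvd_prod_of_mem (fun ℓ => M (cl ℓ)) (Finset.mem_univ ℓ)
    constructor
    · rintro ⟨ℓ, hℓ⟩
      obtain ⟨e, he⟩ := hdiv ℓ
      refine ⟨ℓ, ?_⟩
      rw [he, mul_smul] at hℓ
      exact (hper (cl ℓ) g (e • k)).1 hℓ
    · rintro ⟨ℓ, hℓ⟩
      obtain ⟨e, he⟩ := hdiv ℓ
      refine ⟨ℓ, ?_⟩
      rw [he, mul_smul]
      exact (hper (cl ℓ) g (e • k)).2 hℓ

end

end Vale.Agent.Lib.P043.PQ
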