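import Vale.Agent.Lib.P043.PowerSum

/-!
Power sums satisfying the multiplicative relation of the rectangle theorem: all `p q`-th powers
agree.
-/

namespace Vale.Agent.Lib.P043.PQ

open Finset Polynomial
open Vale.Agent.Lib.P043

lemma exists_mult_prime {l : ℕ} (hl : l.Prime) {e k : ℕ}
    (h : (l ∣ e ∧ l ∣ k) ∨ (¬ l ∣ e ∧ ¬ l ∣ k)) : ∃ r : ℕ, ¬ l ∣ r ∧ e * r ≡ k [MOD l] := by
  have : Fact l.Prime := ⟨hl⟩
  rcases h with ⟨h1, h2⟩ | ⟨h1, h2⟩
  · refine ⟨1, fun h => hl.one_lt.ne' (Nat.dvd_one.1 h), ?_⟩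
    rw [mul_one]
    exact ((Nat.modEq_zero_iff_dvd).2 h1).trans ((Nat.modEq_zero_iff_dvd).2 h2).symm
  · have he : (e : ZMod l) ≠ 0 := by rwa [Ne, ZMod.natCast_eq_zero_iff]
    have hk : (k : ZMod l) ≠ 0 := by rwa [Ne, ZMod.natCast_eq_zero_iff]
    set z : ZMod l := (k : ZMod l) / (e : ZMod l) with hz
    have hz0 : z ≠ 0 := div_ne_zero hk he
    refine ⟨z.val, ?_, ?_⟩
    · intro hd
      apply hz0
      have := (ZMod.natCast_eq_zero_iff z.val l).2 hd
      rwa [ZMod.natCast_zmod_val] at this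
    · rw [← ZMod.natCast_eq_natCast_iff]
      push_cast
      rw [ZMod.natCast_zmod_val, hz]
      field_simp

lemma exists_mult {p q : ℕ} (hp : p.Prime) (hq : q.Prime) (hne : p ≠ q) {e k : ℕ}
    (h1 : (p ∣ e ∧ p ∣ k) ∨ (¬ p ∣ e ∧ ¬ p ∣ k)) (h2 : (q ∣ e ∧ q ∣ k) ∨ (¬ q ∣ e ∧ ¬ q ∣ k)) :
    ∃ r : ℕ, Nat.Coprime r (p * q) ∧ e * r ≡ k [MOD p * q] := by
  obtain ⟨r1, hr1, he1⟩ := exists_mult_prime hp h1
  obtain ⟨r2, hr2, he2⟩ := exists_mult_prime hq h2
  have hcop : Nat.Coprime p q := (Nat.coprime_primes hp hq).2 hne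
  set r : { x // x ≡ r1 [MOD p] ∧ x ≡ r2 [MOD q] } := Nat.chineseRemainder hcop r1 r2 with hr
  refine ⟨r.1, ?_, ?_⟩
  · apply Nat.Coprime.mul_right
    · rw [Nat.coprime_comm, hp.coprime_iff_not_dvd]
      intro hd
      apply hr1
      exact (Nat.modEq_zero_iff_dvd.1 (r.2.1.symm.trans (Nat.modEq_zero_iff_dvd.2 hd)))
    · rw [Nat.coprime_comm, hq.coprime_iff_not_dvd]
      intro hd
      apply hr2
      exact (Nat.modEq_zero_iff_dvd.1 (r.2.2.symm.trans (Nat.modEq_zero_iff_dvd.2 hd)))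
  · rw [← Nat.modEq_and_modEq_iff_modEq_mul hcop]
    exact ⟨(Nat.ModEq.mul_left e r.2.1).trans he1, (Nat.ModEq.mul_left e r.2.2).trans he2⟩

variable {K : Type*} [Field K] [CharZero K] {ι : Type*}

lemma pow_eq_pow_of_modEq {x : K} {N e k : ℕ} (hx : x ^ N = 1) (h : e ≡ k [MOD N]) :
    x ^ e = x ^ k := by
  have h1 : ∀ m : ℕ, x ^ m = x ^ (m % N) := by
    intro m
    conv_lhs => rw [← Nat.div_add_mod m N, pow_add, pow_mul, hx, one_pow, one_mul]
  rw [h1 e, h1 k, h]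

lemma galois_sum {N : ℕ} (hN : 0 < N) {ζ : K} (hζ : IsPrimitiveRoot ζ N) (C : Finset ι) (a : ι → ℕ)
    (h : ∑ f ∈ C, ζ ^ a f = 0) {r : ℕ} (hr : Nat.Coprime r N) :
    ∑ f ∈ C, (ζ ^ r) ^ a f = 0 := by
  set P : ℚ[X] := ∑ f ∈ C, X ^ a f with hP
  have h1 : aeval ζ P = 0 := by
    simp [hP, map_sum, h]
  have h2 : minpoly ℚ ζ ∣ P := minpoly.dvd ℚ ζ h1
  rw [← Polynomial.cyclotomic_eq_minpoly_rat hζ hN] at h2
  have hζr : IsPrimitiveRoot (ζ ^ r) N := hζ.pow_of_coprime r hr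
  have h3 : aeval (ζ ^ r) (cyclotomic N ℚ) = 0 := by
    rw [Polynomial.cyclotomic_eq_minpoly_rat hζr hN]
    exact minpoly.aeval ℚ _
  obtain ⟨R, hR⟩ := h2
  have h4 : aeval (ζ ^ r) P = 0 := by
    rw [hR, map_mul, h3, zero_mul]
  simpa [hP, map_sum] using h4

/-- A multiset of `p q`-th roots of unity with enough vanishing power sums has at least `p q`
distinct values. -/
lemma card_ge_of_vanish [DecidableEq ι] {p q t t' : ℕ} (hp : p.Prime) (hq : q.Prime) (hne : p ≠ q)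
    (ht : p ∣ t) (ht2 : ¬ q ∣ t) (ht' : q ∣ t') (ht'2 : ¬ p ∣ t') (C : Finset ι) (w : ι → K)
    (hw : ∀ f ∈ C, w f ^ (p * q) = 1) {g : ι} (hg : g ∈ C)
    (h1 : ∑ f ∈ C, w f ^ t = 0) (h2 : ∑ f ∈ C, w f ^ t' = 0) (h3 : ∑ f ∈ C, w f ^ (t + t') = 0) :
    p * q ≤ C.card := by
  classical
  have hpos : 0 < p * q := Nat.mul_pos hp.pos hq.pos
  have hcop : Nat.Coprime p q := (Nat.coprime_primes hp hq).2 hne
  have hCne : (C.card : K) ≠ 0 := by
    rw [Nat.cast_ne_zero, Finset.card_ne_zero]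
    exact ⟨g, hg⟩
  -- an element of order `q`
  obtain ⟨f1, hf1, hf1t⟩ : ∃ f ∈ C, w f ^ t ≠ 1 := by
    by_contra hall
    push Not at hall
    apply hCne
    rw [← h1, Finset.sum_congr rfl hall]
    simp
  obtain ⟨f2, hf2, hf2t⟩ : ∃ f ∈ C, w f ^ t' ≠ 1 := by
    by_contra hall
    push Not at hall
    apply hCne
    rw [← h2, Finset.sum_congr rfl hall]
    simp
  set α := w f1 ^ p with hα
  set β := w f2 ^ q with hβ
  have hα1 : α ≠ 1 := by
    intro h
    obtain ⟨c, rfl⟩ := ht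
    apply hf1t
    rw [pow_mul, ← hα, h, one_pow]
  have hβ1 : β ≠ 1 := by
    intro h
    obtain ⟨c, rfl⟩ := ht'
    apply hf2t
    rw [pow_mul, ← hβ, h, one_pow]
  have hαq : α ^ q = 1 := by
    rw [hα, ← pow_mul]
    exact hw f1 hf1
  have hβp : β ^ p = 1 := by
    rw [hβ, ← pow_mul, mul_comm]
    exact hw f2 hf2
  have : Fact p.Prime := ⟨hp⟩
  have : Fact q.Prime := ⟨hq⟩
  have hoα : orderOf α = q := orderOf_eq_prime hαq hα1
  have hoβ : orderOf β = p := orderOf_eq_prime hβp hβ1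
  set ζ := α * β with hζ
  have hoζ : orderOf ζ = p * q := by
    rw [hζ, (Commute.all α β).orderOf_mul_eq_mul_orderOf_of_coprime
      (by rw [hoα, hoβ]; exact hcop.symm), hoα, hoβ, mul_comm]
  have hprim : IsPrimitiveRoot ζ (p * q) := by
    rw [← hoζ]
    exact IsPrimitiveRoot.orderOf ζ
  have : NeZero (p * q) := ⟨hpos.ne'⟩
  have hpow : ∀ f ∈ C, ∃ i, ζ ^ i = w f := by
    intro f hf
    obtain ⟨i, _, hi⟩ := hprim.eq_pow_of_pow_eq_one (hw f hf)
    exact ⟨i, hi⟩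
  choose! a ha using hpow
  -- all multiples
  have key : ∀ e r : ℕ, Nat.Coprime r (p * q) → ∑ f ∈ C, w f ^ e = 0 →
      ∑ f ∈ C, w f ^ (e * r) = 0 := by
    intro e r hr he
    have h4 : ∑ f ∈ C, ζ ^ (a f * e) = 0 := by
      rw [← he]
      refine Finset.sum_congr rfl fun f hf => ?_
      rw [pow_mul, ha f hf]
    have h5 := galois_sum hpos hprim C (fun f => a f * e) h4 hr
    rw [← h5]
    refine Finset.sum_congr rfl fun f hf => ?_
    rw [← ha f hf, ← pow_mul, ← pow_mul]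
    congr 1
    ring
  have modeq : ∀ e k : ℕ, e ≡ k [MOD p * q] → ∑ f ∈ C, w f ^ e = ∑ f ∈ C, w f ^ k := by
    intro e k hek
    refine Finset.sum_congr rfl fun f hf => ?_
    exact pow_eq_pow_of_modEq (hw f hf) hek
  have hall : ∀ s : ℕ, 1 ≤ s → s < p * q → ∑ f ∈ C, w f ^ s = 0 := by
    intro s hs1 hs2
    have hnot : ¬ (p ∣ s ∧ q ∣ s) := by
      rintro ⟨h4, h5⟩
      have := Nat.le_of_dvd (by omega) (hcop.mul_dvd_of_dvd_of_dvd h4 h5)
      omega
    by_cases hps : p ∣ s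
    · have hqs : ¬ q ∣ s := fun h => hnot ⟨hps, h⟩
      obtain ⟨r, hr, he⟩ := exists_mult (e := t) (k := s) hp hq hne (Or.inl ⟨ht, hps⟩)
        (Or.inr ⟨ht2, hqs⟩)
      rw [← modeq _ _ he]
      exact key t r hr h1
    · by_cases hqs : q ∣ s
      · obtain ⟨r, hr, he⟩ := exists_mult (e := t') (k := s) hp hq hne (Or.inr ⟨ht'2, hps⟩)
          (Or.inl ⟨ht', hqs⟩)
        rw [← modeq _ _ he]
        exact key t' r hr h2
      · have hp3 : ¬ p ∣ t + t' := fun h => ht'2 ((Nat.dvd_add_right ht).1 h)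
        have hq3 : ¬ q ∣ t + t' := fun h => ht2 ((Nat.dvd_add_left ht').1 h)
        obtain ⟨r, hr, he⟩ := exists_mult (e := t + t') (k := s) hp hq hne (Or.inr ⟨hp3, hps⟩)
          (Or.inr ⟨hq3, hqs⟩)
        rw [← modeq _ _ he]
        exact key (t + t') r hr h3
  have hne0 : w g ≠ 0 := by
    intro h0
    have := hw g hg
    rw [h0, zero_pow hpos.ne'] at this
    exact zero_ne_one this
  have h6 := image_card_ge C w hg hne0 (p * q) hall
  exact h6.trans Finset.card_image_le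

open Classical in
/-- Separation of exponential sums with the same geometric behaviour. -/
lemma exp_sep (F : Finset ι) (β w : ι → K) (ρ a₀ : K)
    (h : ∀ n : ℕ, ∑ f ∈ F, w f * β f ^ n = a₀ * ρ ^ n) (y : K) (hy : y ∈ F.image β ∨ y = ρ) :
    ∑ f ∈ F.filter (fun f => β f = y), w f = if y = ρ then a₀ else 0 := by
  set Y : Finset K := insert ρ (F.image β) with hY
  have hyY : y ∈ Y := by
    rcases hy with hy | rfl
    · exact Finset.mem_insert_of_mem hy
    · exact Finset.mem_insert_self _ _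
  have h1 := vand Y (fun y => ∑ f ∈ F.filter (fun f => β f = y), w f - if y = ρ then a₀ else 0)
    (fun k _ => by
      have h2 : ∑ y ∈ Y, (∑ f ∈ F.filter (fun f => β f = y), w f) * y ^ k =
          ∑ f ∈ F, w f * β f ^ k := by
        rw [← Finset.sum_fiberwise_of_maps_to (s := F) (t := Y) (g := β)
          (f := fun f => w f * β f ^ k)
          (fun f hf => Finset.mem_insert_of_mem (Finset.mem_image_of_mem _ hf))]
        refine Finset.sum_congr rfl fun y _ => ?_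
        rw [Finset.sum_mul]
        refine Finset.sum_congr rfl fun f hf => ?_
        rw [(Finset.mem_filter.1 hf).2]
      have h3 : ∑ y ∈ Y, (if y = ρ then a₀ else 0) * y ^ k = a₀ * ρ ^ k := by
        rw [Finset.sum_eq_single_of_mem ρ (Finset.mem_insert_self _ _)]
        · simp
        · intro b _ hb
          simp [hb]
      simp_rw [sub_mul]
      rw [Finset.sum_sub_distrib, h2, h3, h k, sub_self]) y hyY
  exact sub_eq_zero.1 h1

/-- The main theorem on power sums. -/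
theorem blocks [DecidableEq ι] (F : Finset ι) (u : ι → K) (hu : ∀ f ∈ F, u f ≠ 0) {p q t t' : ℕ}
    (hp : p.Prime) (hq : q.Prime) (hne : p ≠ q) (hF : F.card = p * q) (ht : p ∣ t) (ht2 : ¬ q ∣ t)
    (ht' : q ∣ t') (ht'2 : ¬ p ∣ t')
    (H : ∀ n m : ℕ, (∑ f ∈ F, u f ^ (t + p * q * n)) * (∑ f ∈ F, u f ^ (t' + p * q * m)) =
      ((p * q : ℕ) : K) * ∑ f ∈ F, u f ^ (t + t' + p * q * (n + m)))
    (hs : ∑ f ∈ F, u f ^ (t + t') ≠ 0) :
    ∀ f ∈ F, ∀ g ∈ F, u f ^ (p * q) = u g ^ (p * q) := by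
  classical
  have hN : ((p * q : ℕ) : K) ≠ 0 := by
    rw [Nat.cast_ne_zero]
    exact (Nat.mul_pos hp.pos hq.pos).ne'
  set a : ℕ → K := fun n => ∑ f ∈ F, u f ^ (t + p * q * n) with ha
  set b : ℕ → K := fun n => ∑ f ∈ F, u f ^ (t' + p * q * n) with hb
  set c : ℕ → K := fun n => ∑ f ∈ F, u f ^ (t + t' + p * q * n) with hc
  have Hab : ∀ n m, a n * b m = ((p * q : ℕ) : K) * c (n + m) := H
  have hc0 : c 0 ≠ 0 := by simpa [hc] using hs
  have hab0 : a 0 * b 0 ≠ 0 := by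
    rw [Hab]
    exact mul_ne_zero hN hc0
  have ha0 : a 0 ≠ 0 := left_ne_zero_of_mul hab0
  have hb0 : b 0 ≠ 0 := right_ne_zero_of_mul hab0
  set ρ := a 1 / a 0 with hρ
  have hb_a : ∀ n, a n * b 0 = a 0 * b n := by
    intro n
    have h1 := Hab n 0
    have h2 := Hab 0 n
    rw [add_zero] at h1
    rw [zero_add] at h2
    rw [h1, h2]
  have hb1 : b 1 = b 0 * ρ := by
    have h1 := hb_a 1
    rw [hρ]
    field_simp
    linear_combination -h1
  have ha_geo : ∀ n, a n = a 0 * ρ ^ n := by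
    intro n
    induction n with
    | zero => simp
    | succ n ih =>
      have h1 := Hab (n + 1) 0
      have h2 := Hab n 1
      rw [add_zero] at h1
      rw [← h2, ih, hb1] at h1
      have h3 : a (n + 1) * b 0 = (a 0 * ρ ^ (n + 1)) * b 0 := by
        rw [h1]
        ring
      exact mul_right_cancel₀ hb0 h3
  have hb_geo : ∀ n, b n = b 0 * ρ ^ n := by
    intro n
    have h1 := hb_a n
    rw [ha_geo n] at h1
    have h2 : a 0 * b n = a 0 * (b 0 * ρ ^ n) := by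
      rw [← h1]
      ring
    exact mul_left_cancel₀ ha0 h2
  have hc_geo : ∀ n, c n = c 0 * ρ ^ n := by
    intro n
    have h1 := Hab n 0
    have h2 := Hab 0 0
    rw [add_zero] at h1 h2
    rw [ha_geo n, mul_assoc, mul_comm (ρ ^ n), ← mul_assoc, h2] at h1
    have h3 : ((p * q : ℕ) : K) * c n = ((p * q : ℕ) : K) * (c 0 * ρ ^ n) := by
      rw [← h1]
      ring
    exact mul_left_cancel₀ hN h3
  set β : ι → K := fun f => u f ^ (p * q) with hβ
  have hexp : ∀ e n : ℕ, ∑ f ∈ F, u f ^ e * β f ^ n = ∑ f ∈ F, u f ^ (e + p * q * n) := by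
    intro e n
    refine Finset.sum_congr rfl fun f _ => ?_
    simp only [hβ]
    rw [pow_add, pow_mul (u f) (p * q) n]
  have e1 : ∀ n, ∑ f ∈ F, u f ^ t * β f ^ n = a 0 * ρ ^ n := fun n => by
    rw [hexp]
    exact ha_geo n
  have e2 : ∀ n, ∑ f ∈ F, u f ^ t' * β f ^ n = b 0 * ρ ^ n := fun n => by
    rw [hexp]
    exact hb_geo n
  have e3 : ∀ n, ∑ f ∈ F, u f ^ (t + t') * β f ^ n = c 0 * ρ ^ n := fun n => by
    rw [hexp]
    exact hc_geo n
  have hall : ∀ g ∈ F, β g = ρ := by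
    intro g hg
    by_contra hgρ
    set y := β g with hy
    have hymem : y ∈ F.image β := Finset.mem_image_of_mem _ hg
    have s1 := exp_sep F β _ ρ _ e1 y (Or.inl hymem)
    have s2 := exp_sep F β _ ρ _ e2 y (Or.inl hymem)
    have s3 := exp_sep F β _ ρ _ e3 y (Or.inl hymem)
    rw [if_neg hgρ] at s1 s2 s3
    set C := F.filter (fun f => β f = y) with hC
    have hgC : g ∈ C := Finset.mem_filter.2 ⟨hg, rfl⟩
    have hug := hu g hg
    have norm : ∀ e : ℕ, ∑ f ∈ C, u f ^ e = 0 → ∑ f ∈ C, (u f / u g) ^ e = 0 := by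
      intro e he
      simp_rw [div_pow]
      rw [← Finset.sum_div, he, zero_div]
    have hcard := card_ge_of_vanish hp hq hne ht ht2 ht' ht'2 C (fun f => u f / u g)
      (fun f hf => by
        have h5 := (Finset.mem_filter.1 hf).2
        have h6 : u f ^ (p * q) = u g ^ (p * q) := h5
        simp only [div_pow]
        rw [h6]
        exact div_self (pow_ne_zero _ hug)) hgC (norm t s1) (norm t' s2) (norm _ s3)
    have hCF : C = F := by
      apply Finset.eq_of_subset_of_card_le (Finset.filter_subset _ _)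
      rw [hF]
      exact hcard
    have s4 := exp_sep F β _ ρ _ e1 ρ (Or.inr rfl)
    rw [if_pos rfl] at s4
    have hempty : F.filter (fun f => β f = ρ) = ∅ := by
      rw [Finset.filter_eq_empty_iff]
      intro f hf hfρ
      rw [← hCF] at hf
      have h7 : β f = y := (Finset.mem_filter.1 hf).2
      exact hgρ (h7.symm.trans hfρ)
    rw [hempty, Finset.sum_empty] at s4
    exact ha0 s4.symm
  intro f hf g hg
  exact (hall f hf).trans (hall g hg).symm

end Vale.Agent.Lib.P043.PQ
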