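import Vale.Agent.Lib.P043.PQ.Rect

/-!
Edges between points of a tiling, their connected components, and a finite labelling.
-/

namespace Vale.Agent.Lib.P043.PQ

open Finset
open Vale.Agent.Lib.P043

variable {G : Type*} [AddCommGroup G]

lemma PType.shift {p q t : ℕ} (h : PType p q t) (n : ℕ) : PType p q (t + p * q * n) :=
  ⟨Dvd.dvd.add h.dvd (Dvd.dvd.mul_right (dvd_mul_right p q) n), fun hd =>
    h.ndvd ((Nat.dvd_add_left (Dvd.dvd.mul_right (dvd_mul_left q p) n)).1 hd)⟩

lemma PType.shift' {p q t : ℕ} (h : PType q p t) (n : ℕ) : PType q p (t + p * q * n) :=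
  ⟨Dvd.dvd.add h.dvd (Dvd.dvd.mul_right (dvd_mul_left q p) n), fun hd =>
    h.ndvd ((Nat.dvd_add_left (Dvd.dvd.mul_right (dvd_mul_right p q) n)).1 hd)⟩

/-- An edge of the tiling `A`: two points differing by `k • f - k • f'`, for a multiplier `k`
congruent to `t` modulo `N`. -/
def Edge (F : Finset G) (A : Set G) (N t : ℕ) (a b : G) : Prop :=
  a ∈ A ∧ b ∈ A ∧ ∃ n : ℕ, ∃ f ∈ F, ∃ f' ∈ F, b = a + (t + N * n) • f - (t + N * n) • f'

lemma Edge.symm {F : Finset G} {A : Set G} {N t : ℕ} {a b : G} (h : Edge F A N t a b) :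
    Edge F A N t b a := by
  obtain ⟨ha, hb, n, f, hf, f', hf', hab⟩ := h
  refine ⟨hb, ha, n, f', hf', f, hf, ?_⟩
  rw [hab]
  abel

/-- The graph on the tiling with both kinds of edges. -/
def EE (F : Finset G) (A : Set G) (N t t' : ℕ) (a b : G) : Prop :=
  Edge F A N t a b ∨ Edge F A N t' a b

/-- Being connected by edges of both kinds. -/
def Conn (F : Finset G) (A : Set G) (N t t' : ℕ) : G → G → Prop :=
  Relation.ReflTransGen (EE F A N t t')

lemma Conn.refl' (F : Finset G) (A : Set G) (N t t' : ℕ) (a : G) : Conn F A N t t' a a :=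
  Relation.ReflTransGen.refl

lemma Conn.symm {F : Finset G} {A : Set G} {N t t' : ℕ} {a b : G} (h : Conn F A N t t' a b) :
    Conn F A N t t' b a := by
  induction h with
  | refl => exact Relation.ReflTransGen.refl
  | tail _ h2 ih =>
    refine Relation.ReflTransGen.head ?_ ih
    rcases h2 with h2 | h2
    · exact Or.inl h2.symm
    · exact Or.inr h2.symm

lemma Conn.trans {F : Finset G} {A : Set G} {N t t' : ℕ} {a b c : G} (h : Conn F A N t t' a b)
    (h' : Conn F A N t t' b c) : Conn F A N t t' a c :=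
  Relation.ReflTransGen.trans h h'

lemma Conn.mem {F : Finset G} {A : Set G} {N t t' : ℕ} {a b : G} (h : Conn F A N t t' a b)
    (ha : a ∈ A) : b ∈ A := by
  induction h with
  | refl => exact ha
  | tail _ h2 _ =>
    rcases h2 with h2 | h2
    · exact h2.2.1
    · exact h2.2.1

namespace Setup

variable {F : Finset G} {A : Set G} {p q t t' k k' : ℕ}

/-- Edges with multipliers of the first kind preserve the lines of the second kind. -/
lemma line_eq_P (S : Setup F A p q) (ht : PType p q t) (hk' : PType q p k') {a b g : G}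
    (h : Edge F A (p * q) t a b) (hg : g ∈ F) : Line F A k' a g = Line F A k' b g := by
  obtain ⟨ha, hb, n, f, hf, f', hf', hab⟩ := h
  exact S.line_eq_of_edge (ht.shift n) hk' ha hb hf hf' hg hab

/-- Edges with multipliers of the second kind preserve the lines of the first kind. -/
lemma line_eq_Q (S : Setup F A p q) (ht' : PType q p t') (hk : PType p q k) {a b g : G}
    (h : Edge F A (p * q) t' a b) (hg : g ∈ F) : Line F A k a g = Line F A k b g := by
  obtain ⟨ha, hb, n, f, hf, f', hf', hab⟩ := h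
  exact S.swap.line_eq_of_edge (ht'.shift' n) hk ha hb hf hf' hg hab

/-- Commutation of the two kinds of edges. -/
lemma commute_step (S : Setup F A p q) (ht : PType p q t) (ht' : PType q p t') {e b b' : G}
    (h1 : Edge F A (p * q) t' e b) (h2 : Edge F A (p * q) t b b') :
    ∃ e', Edge F A (p * q) t e e' ∧ Edge F A (p * q) t' e' b' := by
  obtain ⟨hb, hb', n, f, hf, f', hf', hbb⟩ := h2
  have hline := S.line_eq_Q ht' (ht.shift n) h1 hf
  have hmem : f' ∈ Line F A (t + p * q * n) b f := mem_Line.2 ⟨hf', by rwa [← hbb]⟩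
  rw [← hline] at hmem
  have he' := (mem_Line.1 hmem).2
  refine ⟨e + (t + p * q * n) • f - (t + p * q * n) • f', ⟨h1.1, he', n, f, hf, f', hf', rfl⟩,
    he', hb', ?_⟩
  obtain ⟨_, _, m, g, hg, g', hg', hee⟩ := h1
  refine ⟨m, g, hg, g', hg', ?_⟩
  rw [hbb, hee]
  abel

lemma star_commute (S : Setup F A p q) (ht : PType p q t) (ht' : PType q p t') {c b b' : G}
    (h : Relation.ReflTransGen (Edge F A (p * q) t') c b) (h2 : Edge F A (p * q) t b b') :
    ∃ d, Edge F A (p * q) t c d ∧ Relation.ReflTransGen (Edge F A (p * q) t') d b' := by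
  induction h generalizing b' with
  | refl => exact ⟨b', h2, Relation.ReflTransGen.refl⟩
  | tail _ h3 ih =>
    obtain ⟨e', he1, he2⟩ := S.commute_step ht ht' h3 h2
    obtain ⟨d, hd1, hd2⟩ := ih he1
    exact ⟨d, hd1, hd2.tail he2⟩

/-- Normal form of a path: first edges of the first kind, then edges of the second kind. -/
lemma normal_form (S : Setup F A p q) (ht : PType p q t) (ht' : PType q p t') {a b : G}
    (h : Conn F A (p * q) t t' a b) :
    ∃ c, Relation.ReflTransGen (Edge F A (p * q) t) a c ∧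
      Relation.ReflTransGen (Edge F A (p * q) t') c b := by
  induction h with
  | refl => exact ⟨a, Relation.ReflTransGen.refl, Relation.ReflTransGen.refl⟩
  | tail _ h3 ih =>
    obtain ⟨c, hc1, hc2⟩ := ih
    rcases h3 with h3 | h3
    · obtain ⟨d, hd1, hd2⟩ := S.star_commute ht ht' hc2 h3
      exact ⟨d, hc1.tail hd1, hd2⟩
    · exact ⟨c, hc1, hc2.tail h3⟩

lemma star_mem {N s : ℕ} {a b : G} (h : Relation.ReflTransGen (Edge F A N s) a b) (ha : a ∈ A) :
    b ∈ A := by
  induction h with
  | refl => exact ha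
  | tail _ h2 _ => exact h2.2.1

lemma star_line_P (S : Setup F A p q) (ht : PType p q t) (hk' : PType q p k') {a b g : G}
    (h : Relation.ReflTransGen (Edge F A (p * q) t) a b) (hg : g ∈ F) :
    Line F A k' a g = Line F A k' b g := by
  induction h with
  | refl => rfl
  | tail _ h2 ih => rw [ih]; exact S.line_eq_P ht hk' h2 hg

lemma star_line_Q (S : Setup F A p q) (ht' : PType q p t') (hk : PType p q k) {a b g : G}
    (h : Relation.ReflTransGen (Edge F A (p * q) t') a b) (hg : g ∈ F) :
    Line F A k a g = Line F A k b g := by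
  induction h with
  | refl => rfl
  | tail _ h2 ih => rw [ih]; exact S.line_eq_Q ht' hk h2 hg

lemma star_congr {N s d : ℕ} (hd : d ∣ s) (hdN : d ∣ N) {a b : G}
    (h : Relation.ReflTransGen (Edge F A N s) a b) : ∃ u : G, b = a + d • u := by
  induction h with
  | refl => exact ⟨0, by simp⟩
  | tail _ h2 ih =>
    obtain ⟨u, rfl⟩ := ih
    obtain ⟨_, _, n, f, _, f', _, hbb⟩ := h2
    obtain ⟨w, hw⟩ : d ∣ s + N * n := Dvd.dvd.add hd (Dvd.dvd.mul_right hdN n)
    refine ⟨u + w • f - w • f', ?_⟩
    rw [hbb, hw, mul_smul, mul_smul, smul_sub, smul_add]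
    abel

open Classical in
/-- Two connected points have crossing lines. -/
theorem cross_of_conn (S : Setup F A p q) (ht : PType p q t) (ht' : PType q p t') {a b f g : G}
    (ha : a ∈ A) (h : Conn F A (p * q) t t' a b) (hf : f ∈ F) (hg : g ∈ F) :
    (Line F A t b f ∩ Line F A t' a g).card = 1 := by
  obtain ⟨c, hc1, hc2⟩ := S.normal_form ht ht' h
  have hc : c ∈ A := star_mem hc1 ha
  rw [← S.star_line_Q ht' ht hc2 hf, S.star_line_P ht ht' hc1 hg]
  exact (S.rect ht ht' hc hf hg).2.2.1

/-- The product property of a component. -/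
lemma prod_of_conn (S : Setup F A p q) (ht : PType p q t) (ht' : PType q p t') {a b : G}
    (h : Conn F A (p * q) t t' a b) :
    ∃ c, Conn F A (p * q) t t' a c ∧ (∃ u : G, c = a + p • u) ∧ (∃ v : G, b = c + q • v) := by
  obtain ⟨c, hc1, hc2⟩ := S.normal_form ht ht' h
  refine ⟨c, ?_, star_congr ht.dvd (dvd_mul_right p q) hc1,
    star_congr ht'.dvd (dvd_mul_left q p) hc2⟩
  clear hc2
  induction hc1 with
  | refl => exact Relation.ReflTransGen.refl
  | tail _ h2 ih => exact Relation.ReflTransGen.tail ih (Or.inl h2)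

/-- All points of a rectangle are connected. -/
lemma rect_conn (S : Setup F A p q) (ht : PType p q t) (ht' : PType q p t') {a a₀ f g h : G}
    {n m : ℕ} (ha : a ∈ A) (hf : f ∈ F) (hg : g ∈ F) (hh : h ∈ F) (ha₀ : a₀ ∈ A)
    (he : a₀ + (t + p * q * n) • h + (t' + p * q * m) • h =
      a + (t + p * q * n) • f + (t' + p * q * m) • g) :
    Conn F A (p * q) t t' a a₀ := by
  have hk := ht.shift n
  have hk' := ht'.shift' m
  set k := t + p * q * n with hkdef
  set k' := t' + p * q * m with hk'def
  have hrect := (S.rect hk hk' ha hf hg).2.2.2 h hh h hh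
  have h0 : a + k • f + k' • g - k • h - k' • h = a₀ := by
    rw [← he]
    abel
  rw [h0] at hrect
  have hm := (hrect.1 ha₀)
  have ha₁ : a + k' • g - k' • h ∈ A := (mem_Line.1 hm.2).2
  have e1 : Edge F A (p * q) t' a (a + k' • g - k' • h) :=
    ⟨ha, ha₁, m, g, hg, h, hh, rfl⟩
  have e2 : Edge F A (p * q) t (a + k' • g - k' • h) a₀ := by
    refine ⟨ha₁, ha₀, n, f, hf, h, hh, ?_⟩
    rw [← hkdef, ← h0]
    abel
  exact Relation.ReflTransGen.tail (Relation.ReflTransGen.single (Or.inr e1)) (Or.inl e2)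

/-- The unique decomposition at a multiplier that is a sum of the two kinds. -/
lemma existsUnique_add (S : Setup F A p q) (hk : PType p q k) (hk' : PType q p k') (x : G) :
    ∃! h, h ∈ F ∧ x - (k + k') • h ∈ A := by
  classical
  have h1 := S.T_add_eq_one hk hk' x
  rw [T_ind] at h1
  have h2 : (F.filter (fun f => x - (k + k') • f ∈ A)).card = 1 := by exact_mod_cast h1
  obtain ⟨h, hh⟩ := Finset.card_eq_one.1 h2
  refine ⟨h, ?_, ?_⟩
  · have : h ∈ F.filter (fun f => x - (k + k') • f ∈ A) := by rw [hh]; simp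
    exact Finset.mem_filter.1 this
  · rintro h' ⟨h3, h4⟩
    have : h' ∈ F.filter (fun f => x - (k + k') • f ∈ A) := Finset.mem_filter.2 ⟨h3, h4⟩
    rw [hh] at this
    exact Finset.mem_singleton.1 this

end Setup

end Vale.Agent.Lib.P043.PQ
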