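import Vale.Agent.Lib.P043.PQ.Assemble

/-!
Transfer to an arbitrary finitely generated abelian group.
-/

namespace Vale.Agent.Lib.P043.PQ

open Finset
open Vale.Agent.Lib.P043

variable {H : Type*} [AddCommGroup H]

/-- Every tile of size `p * q` in a finitely generated abelian group has a periodic tiling. -/
theorem tile_mul_prime [Module.Finite ℤ H] {F : Finset H} {p q : ℕ} (hp : p.Prime) (hq : q.Prime)
    (hne : p ≠ q) (hF : F.card = p * q) {A : Set H} (hA : ∀ g, ∃! f, f ∈ F ∧ g - f ∈ A) :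
    ∃ A' : Set H, (∀ g, ∃! f, f ∈ F ∧ g - f ∈ A') ∧
      ∃ M : ℕ, 0 < M ∧ ∀ g k, g + M • k ∈ A' ↔ g ∈ A' := by
  classical
  have hq0 : 0 < F.card := by
    rw [hF]
    exact Nat.mul_pos hp.pos hq.pos
  obtain ⟨f0, hf0⟩ : F.Nonempty := Finset.card_pos.1 hq0
  set S : Set H := (fun f => f - f0) '' (F : Set H) with hS
  set L : AddSubgroup H := AddSubgroup.closure S with hL
  have hsubL : ∀ f ∈ F, f - f0 ∈ L := fun f hf =>
    AddSubgroup.subset_closure ⟨f, hf, rfl⟩
  have hfgL : AddGroup.FG L := by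
    rw [AddGroup.fg_iff_addSubgroup_fg]
    refine ⟨(F.image (fun f => f - f0)), ?_⟩
    rw [hL, hS, Finset.coe_image]
  have hmodL : Module.Finite ℤ L := Module.Finite.iff_addGroup_fg.2 hfgL
  let FG0 : Finset H := F.image (fun f => f - f0)
  let FL : Finset L := FG0.subtype (· ∈ L)
  have hmemFL : ∀ x : L, x ∈ FL ↔ ∃ f ∈ F, f - f0 = (x : H) := by
    intro x
    simp only [FL, FG0, Finset.mem_subtype, Finset.mem_image]
  have hcardFL : FL.card = p * q := by
    rw [Finset.card_subtype, Finset.filter_true_of_mem, Finset.card_image_of_injective, hF]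
    · intro a b hab
      exact sub_left_inj.1 hab
    · intro x hx
      obtain ⟨f, hf, rfl⟩ := Finset.mem_image.1 hx
      exact hsubL f hf
  have h0FL : (0 : L) ∈ FL := (hmemFL 0).2 ⟨f0, hf0, by simp⟩
  have hgenL : AddSubgroup.closure (FL : Set L) = ⊤ := by
    have h1 : (FL : Set L) = ((↑) : L → H) ⁻¹' S := by
      ext x
      simp only [Finset.mem_coe, hmemFL, Set.mem_preimage, hS, Set.mem_image]
    rw [h1, hL]
    exact AddSubgroup.closure_closure_coe_preimage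
  have hAL : ∀ x : L, ∃! f, f ∈ FL ∧ x - f ∈ {y : L | (y : H) ∈ A} := by
    intro x
    obtain ⟨f, ⟨hf, hfA⟩, huniq⟩ := hA ((x : H) + f0)
    refine ⟨⟨f - f0, hsubL f hf⟩, ⟨(hmemFL _).2 ⟨f, hf, rfl⟩, ?_⟩, ?_⟩
    · show ((x : H) - (f - f0)) ∈ A
      have : (x : H) - (f - f0) = (x : H) + f0 - f := by abel
      rwa [this]
    · rintro ⟨y, hy⟩ ⟨hyF, hyA⟩
      obtain ⟨f', hf', hfy⟩ := (hmemFL _).1 hyF
      have h1 : (x : H) + f0 - f' ∈ A := by
        have h2 : ((x : H) - y) ∈ A := hyA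
        have h3 : (x : H) + f0 - f' = (x : H) - y := by
          simp only at hfy
          rw [← hfy]
          abel
        rwa [h3]
      have h4 := huniq f' ⟨hf', h1⟩
      apply Subtype.ext
      simp only at hfy ⊢
      rw [← hfy, h4]
  obtain ⟨AL, hALt, M, hM, hper⟩ := main_gen_pq hp hq hne hcardFL h0FL hgenL hAL
  obtain ⟨e, he0, he⟩ := exists_sat_exponent L
  set M2 := M * e with hM2
  have hM2pos : 0 < M2 := Nat.mul_pos hM he0
  let L1 : AddSubgroup H := L ⊔ (nsmulAddMonoidHom (α := H) M2).range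
  let rep : H → H := fun h => Quotient.out (QuotientAddGroup.mk h : H ⧸ L1)
  have hrep_mem : ∀ h, h - rep h ∈ L1 := by
    intro h
    have h1 : (QuotientAddGroup.mk (rep h) : H ⧸ L1) = QuotientAddGroup.mk h := Quotient.out_eq _
    have h2 := QuotientAddGroup.eq.1 h1
    have h3 : h - rep h = -rep h + h := by abel
    rw [h3]
    exact h2
  have hrep_eq : ∀ h x, x ∈ L1 → rep (h + x) = rep h := by
    intro h x hx
    have h1 : (QuotientAddGroup.mk (h + x) : H ⧸ L1) = QuotientAddGroup.mk h := by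
      rw [QuotientAddGroup.eq]
      have h2 : -(h + x) + h = -x := by abel
      rw [h2]
      exact L1.neg_mem hx
    simp only [rep, h1]
  have hLL1 : ∀ x ∈ L, x ∈ L1 := fun x hx => AddSubgroup.mem_sup_left hx
  have hML1 : ∀ k, M2 • k ∈ L1 := fun k => AddSubgroup.mem_sup_right ⟨k, rfl⟩
  let A1 : Set H := {h | ∃ (l : L) (k : H), h - rep h = (l : H) + M2 • k ∧ l ∈ AL}
  have htile1 : ∀ h, ∃! f, f ∈ F ∧ h - (f - f0) ∈ A1 := by
    intro h
    obtain ⟨l0, hl0, z, ⟨k0, rfl⟩, hl0z⟩ := AddSubgroup.mem_sup.1 (hrep_mem h)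
    obtain ⟨f', ⟨hf'F, hf'A⟩, huniq⟩ := hALt ⟨l0, hl0⟩
    obtain ⟨f, hf, hff'⟩ := (hmemFL _).1 hf'F
    have hrepf : ∀ f1 ∈ F, rep (h - (f1 - f0)) = rep h := by
      intro f1 hf1
      have h1 : h - (f1 - f0) = h + -(f1 - f0) := by abel
      rw [h1]
      exact hrep_eq h _ (hLL1 _ (L.neg_mem (hsubL f1 hf1)))
    refine ⟨f, ⟨hf, ?_⟩, ?_⟩
    · refine ⟨⟨l0, hl0⟩ - f', k0, ?_, hf'A⟩
      rw [hrepf f hf]
      have h2 : ((⟨l0, hl0⟩ - f' : L) : H) = l0 - (f' : H) := rfl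
      rw [h2, ← hff']
      have h3 : h - rep h = l0 + M2 • k0 := hl0z.symm
      have h4 : h - (f - f0) - rep h = (h - rep h) - (f - f0) := by abel
      rw [h4, h3]
      abel
    · rintro f2 ⟨hf2, l, k, hlk, hlA⟩
      rw [hrepf f2 hf2] at hlk
      have h5 : l0 + M2 • k0 = h - rep h := hl0z
      have h6 : (l0 - (f2 - f0)) - (l : H) = M2 • (k - k0) := by
        have h7 : h - (f2 - f0) - rep h = (l : H) + M2 • k := hlk
        rw [smul_sub]
        have h8 : h - rep h = l0 + M2 • k0 := h5.symm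
        have h9 : h - (f2 - f0) - rep h = (h - rep h) - (f2 - f0) := by abel
        rw [h9, h8] at h7
        have h10 : l0 - (f2 - f0) - (l : H) =
            (l0 + M2 • k0 - (f2 - f0)) - (l : H) - M2 • k0 := by abel
        rw [h10, h7]
        abel
      have hmemL : l0 - (f2 - f0) - (l : H) ∈ L :=
        L.sub_mem (L.sub_mem hl0 (hsubL f2 hf2)) l.2
      have hmemM : M2 • (k - k0) ∈ L := h6 ▸ hmemL
      have hek : e • (k - k0) ∈ L := he _ M2 hM2pos hmemM
      have h11 : (⟨l0, hl0⟩ : L) - ⟨f2 - f0, hsubL f2 hf2⟩ = l + M • ⟨e • (k - k0), hek⟩ := by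
        apply Subtype.ext
        show l0 - (f2 - f0) = (l : H) + M • (e • (k - k0))
        rw [← mul_smul, ← hM2, ← h6]
        abel
      have h12 : (⟨l0, hl0⟩ : L) - ⟨f2 - f0, hsubL f2 hf2⟩ ∈ AL := by
        rw [h11]
        exact (hper _ _).2 hlA
      have h13 := huniq _ ⟨(hmemFL _).2 ⟨f2, hf2, rfl⟩, h12⟩
      have h14 : f2 - f0 = (f' : H) := congrArg Subtype.val h13
      rw [← hff'] at h14
      exact sub_left_inj.1 h14
  have hperA1 : ∀ h k, h + M2 • k ∈ A1 ↔ h ∈ A1 := by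
    intro h k
    have hr : rep (h + M2 • k) = rep h := hrep_eq h _ (hML1 k)
    constructor
    · rintro ⟨l, k', hlk, hlA⟩
      refine ⟨l, k' - k, ?_, hlA⟩
      rw [hr] at hlk
      rw [smul_sub]
      have h1 : h - rep h = (h + M2 • k - rep h) - M2 • k := by abel
      rw [h1, hlk]
      abel
    · rintro ⟨l, k', hlk, hlA⟩
      refine ⟨l, k' + k, ?_, hlA⟩
      rw [hr, smul_add]
      have h1 : h + M2 • k - rep h = (h - rep h) + M2 • k := by abel
      rw [h1, hlk]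
      abel
  refine ⟨{x | x + f0 ∈ A1}, ?_, M2, hM2pos, ?_⟩
  · intro g
    obtain ⟨f, ⟨hf, hfA⟩, huniq⟩ := htile1 g
    have hconv : ∀ f1, g - f1 + f0 = g - (f1 - f0) := by
      intro f1
      abel
    refine ⟨f, ⟨hf, ?_⟩, ?_⟩
    · show g - f + f0 ∈ A1
      rwa [hconv]
    · rintro f1 ⟨hf1, hf1A⟩
      have h1 : g - f1 + f0 ∈ A1 := hf1A
      rw [hconv] at h1
      exact huniq f1 ⟨hf1, h1⟩
  · intro g k
    show g + M2 • k + f0 ∈ A1 ↔ g + f0 ∈ A1
    have h1 : g + M2 • k + f0 = (g + f0) + M2 • k := by abel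
    rw [h1]
    exact hperA1 _ _

end Vale.Agent.Lib.P043.PQ
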