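import Vale.Agent.Lib.P043.PQ.Mean
import Vale.Agent.Lib.P043.PQ.Blocks

/-!
From the multiplicative relation to vanishing in mean square.
-/

namespace Vale.Agent.Lib.P043.PQ

open Finset
open Vale.Agent.Lib.P043

variable {G : Type*} [AddCommGroup G]

/-- The annihilator of a real function in the real group algebra. -/
noncomputable def annI (c : G → ℝ) : Ideal (AddMonoidAlgebra ℝ G) where
  carrier := {r | act ℝ r c = 0}
  zero_mem' := by simp
  add_mem' := by
    intro a b ha hb
    simp only [Set.mem_ofPred_eq] at ha hb ⊢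
    rw [map_add, LinearMap.add_apply, ha, hb, add_zero]
  smul_mem' := by
    intro a b hb
    simp only [Set.mem_ofPred_eq] at hb ⊢
    rw [smul_eq_mul, map_mul, Module.End.mul_apply, hb, map_zero]

lemma mem_annI {c : G → ℝ} {r : AddMonoidAlgebra ℝ G} : r ∈ annI c ↔ act ℝ r c = 0 := Iff.rfl

theorem radical_mem_annI {F : Finset G} {p q t t' : ℕ} (hp : p.Prime) (hq : q.Prime) (hne : p ≠ q)
    (hF : F.card = p * q) (ht : p ∣ t) (ht2 : ¬ q ∣ t) (ht' : q ∣ t') (ht'2 : ¬ p ∣ t')
    {c : G → ℝ}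
    (H : ∀ n m x, T F (t + p * q * n) (T F (t' + p * q * m) c) x =
      ((p * q : ℕ) : ℝ) * T F (t + t' + p * q * (n + m)) c x)
    {f g : G} (hf : f ∈ F) (hg : g ∈ F) :
    (AddMonoidAlgebra.single ((p * q) • f) (1 : ℝ) - AddMonoidAlgebra.single ((p * q) • g) (1 : ℝ)) *
      E ℝ F (t + t') ∈ (annI c).radical := by
  classical
  rw [Ideal.radical_eq_sInf, Ideal.mem_sInf]
  rintro P ⟨hJ, hP⟩
  have : P.IsPrime := hP
  let D := AddMonoidAlgebra ℝ G ⧸ P
  have : IsDomain D := Ideal.Quotient.isDomain P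
  have hcharD : CharZero D := charZero_of_injective_algebraMap (algebraMap ℝ D).injective
  let K := FractionRing D
  have hcharK : CharZero K :=
    charZero_of_injective_algebraMap (IsFractionRing.injective D K)
  let φ : AddMonoidAlgebra ℝ G →+* K :=
    (algebraMap D K).comp (Ideal.Quotient.mk P)
  have hφker : ∀ r, φ r = 0 ↔ r ∈ P := by
    intro r
    simp only [φ, RingHom.comp_apply]
    rw [map_eq_zero_iff (algebraMap D K) (IsFractionRing.injective D K)]
    exact Ideal.Quotient.eq_zero_iff_mem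
  let u : G → K := fun h => φ (AddMonoidAlgebra.single h 1)
  have hu : ∀ h, u h ≠ 0 := by
    intro h
    have h1 : u h * u (-h) = 1 := by
      simp only [u]
      rw [← map_mul, AddMonoidAlgebra.single_mul_single]
      simp only [add_neg_cancel, mul_one]
      exact map_one φ
    intro h0
    rw [h0, zero_mul] at h1
    exact zero_ne_one h1
  have hupow : ∀ (k : ℕ) (h : G), φ (AddMonoidAlgebra.single (k • h) 1) = u h ^ k := by
    intro k h
    simp only [u]
    rw [← map_pow, AddMonoidAlgebra.single_pow, one_pow]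
  have hE : ∀ k : ℕ, φ (E ℝ F k) = ∑ f ∈ F, u f ^ k := by
    intro k
    unfold E
    rw [map_sum]
    exact Finset.sum_congr rfl fun f _ => hupow k f
  have Hrel : ∀ n m : ℕ, (∑ f ∈ F, u f ^ (t + p * q * n)) * (∑ f ∈ F, u f ^ (t' + p * q * m)) =
      ((p * q : ℕ) : K) * ∑ f ∈ F, u f ^ (t + t' + p * q * (n + m)) := by
    intro n m
    have hmem : E ℝ F (t + p * q * n) * E ℝ F (t' + p * q * m) -
        ((p * q : ℕ) • E ℝ F (t + t' + p * q * (n + m))) ∈ annI c := by
      rw [mem_annI]
      funext x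
      rw [map_sub, map_mul, map_nsmul, LinearMap.sub_apply, LinearMap.smul_apply,
        Module.End.mul_apply, Pi.sub_apply, Pi.smul_apply, Pi.zero_apply, act_E, act_E, act_E,
        H n m x, nsmul_eq_mul, sub_self]
    have h1 := (hφker _).2 (hJ hmem)
    rw [map_sub, map_mul, hE, hE, map_nsmul, hE, nsmul_eq_mul] at h1
    exact sub_eq_zero.1 h1
  have hmain : E ℝ F (t + t') ∈ P ∨
      (AddMonoidAlgebra.single ((p * q) • f) (1 : ℝ) -
        AddMonoidAlgebra.single ((p * q) • g) (1 : ℝ)) ∈ P := by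
    by_cases hs : ∑ f ∈ F, u f ^ (t + t') = 0
    · left
      rw [← hφker, hE, hs]
    · right
      have h2 := blocks F u (fun f _ => hu f) hp hq hne hF ht ht2 ht' ht'2 Hrel hs f hf g hg
      rw [← hφker, map_sub, hupow, hupow, h2, sub_self]
  rcases hmain with h1 | h1
  · exact Ideal.mul_mem_left _ _ h1
  · exact Ideal.mul_mem_right _ _ h1

/-- The mean square of the difference of translates of `T F (t + t') c` along `(p * q) • F`
vanishes. -/
theorem mean_sq_diff_zero {M : (G → ℝ) → ℝ} (hM : IsMean M) {F : Finset G} {p q t t' : ℕ}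
    (hp : p.Prime) (hq : q.Prime) (hne : p ≠ q)
    (hF : F.card = p * q) (ht : p ∣ t) (ht2 : ¬ q ∣ t) (ht' : q ∣ t') (ht'2 : ¬ p ∣ t')
    {c : G → ℝ} (hc : Bdd c)
    (H : ∀ n m x, T F (t + p * q * n) (T F (t' + p * q * m) c) x =
      ((p * q : ℕ) : ℝ) * T F (t + t' + p * q * (n + m)) c x)
    {f g : G} (hf : f ∈ F) (hg : g ∈ F) :
    M (fun x => (T F (t + t') c (x - (p * q) • f) - T F (t + t') c (x - (p * q) • g)) ^ 2) = 0 := by
  obtain ⟨k, hk⟩ := radical_mem_annI hp hq hne hF ht ht2 ht' ht'2 H hf hg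
  have h1 := sq_zero_of_pow hM _ hc k (mem_annI.1 hk)
  rw [← h1]
  congr 1
  funext x
  congr 1
  rw [map_mul, Module.End.mul_apply, map_sub, LinearMap.sub_apply, Pi.sub_apply, act_E, act_single,
    act_single, one_mul, one_mul]

end Vale.Agent.Lib.P043.PQ
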