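import Vale.Agent.Lib.P043.PQ.Comp
import Vale.Agent.Lib.P043.PQ.Spectral

/-!
Labels of the connected components of a tiling, and the windows on which they are translation
invariant along the multiples of `p * q`.
-/

namespace Vale.Agent.Lib.P043.PQ

open Finset
open Vale.Agent.Lib.P043

variable {G : Type*} [AddCommGroup G]

/-- The quotient of the group by the multiples of `n`. -/
abbrev QQ (G : Type*) [AddCommGroup G] (n : ℕ) := G ⧸ (nsmulAddMonoidHom (α := G) n).range

/-- The class of a point modulo the multiples of `n`. -/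
abbrev toQ (n : ℕ) (x : G) : QQ G n := QuotientAddGroup.mk x

lemma toQ_add_nsmul (n : ℕ) (x v : G) : toQ n (x + n • v) = toQ n x := by
  unfold toQ
  rw [QuotientAddGroup.eq]
  exact ⟨-v, by simp⟩

lemma toQ_eq_iff {n : ℕ} {x y : G} : toQ n x = toQ n y ↔ ∃ v, y = x + n • v := by
  unfold toQ
  rw [QuotientAddGroup.eq]
  constructor
  · rintro ⟨v, hv⟩
    refine ⟨v, ?_⟩
    have : n • v = -x + y := hv
    rw [this]
    abel
  · rintro ⟨v, rfl⟩
    exact ⟨v, by simp⟩

/-- The line as a subset of the type of elements of `F`. -/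
def lineSet (F : Finset G) (A : Set G) (k : ℕ) (a f : G) : Set F :=
  {f' | a + k • f - k • (f' : G) ∈ A}

lemma lineSet_eq_iff {F : Finset G} {A : Set G} {k : ℕ} {a f b g : G} :
    lineSet F A k a f = lineSet F A k b g ↔ Line F A k a f = Line F A k b g := by
  constructor
  · intro h
    ext f'
    rw [mem_Line, mem_Line]
    constructor
    · rintro ⟨hf', h1⟩
      have : (⟨f', hf'⟩ : F) ∈ lineSet F A k b g := by
        rw [← h]
        exact h1
      exact ⟨hf', this⟩
    · rintro ⟨hf', h1⟩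
      have : (⟨f', hf'⟩ : F) ∈ lineSet F A k a f := by
        rw [h]
        exact h1
      exact ⟨hf', this⟩
  · intro h
    ext ⟨f', hf'⟩
    show a + k • f - k • f' ∈ A ↔ b + k • g - k • f' ∈ A
    have h1 : f' ∈ Line F A k a f ↔ f' ∈ Line F A k b g := by rw [h]
    rw [mem_Line, mem_Line] at h1
    constructor
    · intro h2
      exact (h1.1 ⟨hf', h2⟩).2
    · intro h2
      exact (h1.2 ⟨hf', h2⟩).2

/-- The label of a point of the tiling: the lines of the first kind of its component and the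
image of its component modulo `p * q`. -/
def lab (F : Finset G) (A : Set G) (p q t t' : ℕ) (a : G) : Set (Set F) × Set (QQ G (p * q)) :=
  ({S | ∃ b, Conn F A (p * q) t t' a b ∧ ∃ f ∈ F, S = lineSet F A t b f},
   {y | ∃ b, Conn F A (p * q) t t' a b ∧ y = toQ (p * q) b})

lemma lab_eq_of_conn {F : Finset G} {A : Set G} {p q t t' : ℕ} {a b : G}
    (h : Conn F A (p * q) t t' a b) : lab F A p q t t' a = lab F A p q t t' b := by
  unfold lab
  refine Prod.ext (Set.ext fun S => ?_) (Set.ext fun y => ?_)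
  · constructor
    · rintro ⟨c, hc, hS⟩
      exact ⟨c, h.symm.trans hc, hS⟩
    · rintro ⟨c, hc, hS⟩
      exact ⟨c, h.trans hc, hS⟩
  · constructor
    · rintro ⟨c, hc, hS⟩
      exact ⟨c, h.symm.trans hc, hS⟩
    · rintro ⟨c, hc, hS⟩
      exact ⟨c, h.trans hc, hS⟩

namespace Setup

variable {F : Finset G} {A : Set G} {p q t t' : ℕ}

/-- The base points with respect to the sum of the two multipliers. -/
lemma exists_center (S : Setup F A p q) (ht : PType p q t) (ht' : PType q p t') :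
    ∃ cen : G → G, (∀ x, cen x ∈ A ∧ ∃ h ∈ F, x = cen x + (t + t') • h) ∧
      ∀ x a h, a ∈ A → h ∈ F → x = a + (t + t') • h → a = cen x := by
  have h1 := fun x => S.existsUnique_add ht ht' x
  choose h₀ hh₀ huniq using h1
  refine ⟨fun x => x - (t + t') • h₀ x, fun x => ⟨(hh₀ x).2, h₀ x, (hh₀ x).1,
    (sub_add_cancel _ _).symm⟩, ?_⟩
  intro x a h ha hh hx
  have h2 : x - (t + t') • h ∈ A := by
    rw [hx]
    simpa using ha
  have h3 := huniq x h ⟨hh, h2⟩
  show a = x - (t + t') • h₀ x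
  rw [← h3, hx]
  abel

end Setup

open Classical in
/-- The real indicator of the points of the tiling with a given label. -/
noncomputable def cInd (F : Finset G) (A : Set G) (p q t t' : ℕ)
    (ℓ : Set (Set F) × Set (QQ G (p * q))) : G → ℝ :=
  fun x => if x ∈ A ∧ lab F A p q t t' x = ℓ then 1 else 0

lemma cInd_bdd (F : Finset G) (A : Set G) (p q t t' : ℕ) (ℓ : Set (Set F) × Set (QQ G (p * q))) :
    Bdd (cInd F A p q t t' ℓ) := by
  refine ⟨1, fun x => ?_⟩
  unfold cInd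
  split_ifs <;> simp

lemma T_bdd (F : Finset G) (k : ℕ) {c : G → ℝ} (hc : Bdd c) : Bdd (T F k c) := by
  have := Bdd.sum F (fun f x => c (x - k • f)) (fun f _ => hc.comp _)
  exact this

namespace Setup

variable {F : Finset G} {A : Set G} {p q t t' : ℕ}

open Classical in
/-- The sum operator on the indicator of a label class. -/
lemma T_cInd_add {k : ℕ} {a₀ h₀ : G}
    (ha₀ : a₀ ∈ A) (hh₀ : h₀ ∈ F) (ℓ : Set (Set F) × Set (QQ G (p * q))) {x : G}
    (hu : ∀ h, h ∈ F ∧ x - k • h ∈ A → h = h₀) (hx : x - k • h₀ = a₀) :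
    T F k (cInd F A p q t t' ℓ) x = if lab F A p q t t' a₀ = ℓ then 1 else 0 := by
  rw [T_apply, Finset.sum_eq_single h₀]
  · simp [cInd, hx, ha₀]
  · intro h hh hne
    have : x - k • h ∉ A := fun hA => hne (hu h ⟨hh, hA⟩)
    simp [cInd, this]
  · exact fun hc => absurd hh₀ hc

open Classical in
/-- The multiplicative relation for the indicator of a label class. -/
theorem T_T_cInd (S : Setup F A p q) (ht : PType p q t) (ht' : PType q p t')
    (ℓ : Set (Set F) × Set (QQ G (p * q))) (n m : ℕ) (x : G) :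
    T F (t + p * q * n) (T F (t' + p * q * m) (cInd F A p q t t' ℓ)) x =
      ((p * q : ℕ) : ℝ) * T F (t + t' + p * q * (n + m)) (cInd F A p q t t' ℓ) x := by
  have hk := ht.shift n
  have hk' := ht'.shift' m
  have hmul : t + t' + p * q * (n + m) = (t + p * q * n) + (t' + p * q * m) := by ring
  rw [hmul]
  obtain ⟨h₀, ⟨hh₀, ha₀⟩, huniq⟩ := S.existsUnique_add hk hk' x
  set a₀ := x - ((t + p * q * n) + (t' + p * q * m)) • h₀ with ha₀def
  rw [T_cInd_add ha₀ hh₀ ℓ (fun h hh => huniq h hh) rfl]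
  set ε : ℝ := if lab F A p q t t' a₀ = ℓ then 1 else 0 with hε
  have hterm : ∀ f ∈ F, ∀ g ∈ F, cInd F A p q t t' ℓ (x - (t + p * q * n) • f - (t' + p * q * m) • g) =
      ((ind A (x - (t + p * q * n) • f - (t' + p * q * m) • g) : ℤ) : ℝ) * ε := by
    intro f hf g hg
    by_cases hA : x - (t + p * q * n) • f - (t' + p * q * m) • g ∈ A
    · have hconn : Conn F A (p * q) t t' (x - (t + p * q * n) • f - (t' + p * q * m) • g) a₀ := by
        refine S.rect_conn ht ht' (n := n) (m := m) hA hf hg hh₀ ha₀ ?_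
        rw [ha₀def, add_smul]
        abel
      have hlab := lab_eq_of_conn hconn
      simp only [cInd, ind, hA, true_and, if_true, Int.cast_one, one_mul, hε, hlab]
    · simp [cInd, ind, hA]
  have h1 : T F (t + p * q * n) (T F (t' + p * q * m) (cInd F A p q t t' ℓ)) x =
      ((T F (t + p * q * n) (T F (t' + p * q * m) (ind A)) x : ℤ) : ℝ) * ε := by
    simp only [T_apply]
    push_cast
    rw [Finset.sum_mul]
    refine Finset.sum_congr rfl fun f hf => ?_
    rw [Finset.sum_mul]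
    exact Finset.sum_congr rfl fun g hg => hterm f hf g hg
  rw [h1, S.TT_eq hk hk' x]
  push_cast
  ring

/-- The set of points where the label is not constant along `x - (p * q) • F`. -/
def DefSet (F : Finset G) (n : ℕ) {ι : Type*} (L : G → ι) : Set G :=
  {x | ∃ f ∈ F, ∃ g ∈ F, L (x - n • f) ≠ L (x - n • g)}

open Classical in
theorem mean_defSet_zero [Module.Finite ℤ G] (S : Setup F A p q) (ht : PType p q t)
    (ht' : PType q p t') {M : (G → ℝ) → ℝ} (hM : IsMean M) {cen : G → G}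
    (huniq : ∀ x a h, a ∈ A → h ∈ F → x = a + (t + t') • h → a = cen x) :
    M (fun x => if x ∈ DefSet F (p * q) (fun x => lab F A p q t t' (cen x)) then 1 else 0) = 0 := by
  have hpq : 0 < p * q := Nat.mul_pos S.hp.pos S.hq.pos
  have hfinQ := finite_quot' (G := G) hpq
  let _ := Fintype.ofFinite (Set (Set F) × Set (QQ G (p * q)))
  set φ : (Set (Set F) × Set (QQ G (p * q))) → G → ℝ :=
    fun ℓ => T F (t + t') (cInd F A p q t t' ℓ) with hφ
  have hφval : ∀ ℓ x, φ ℓ x = if lab F A p q t t' (cen x) = ℓ then 1 else 0 := by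
    intro ℓ x
    obtain ⟨h₀, ⟨hh₀, ha₀⟩, hu⟩ := S.existsUnique_add ht ht' x
    have e := huniq x _ h₀ ha₀ hh₀ (sub_add_cancel _ _).symm
    rw [← e]
    exact T_cInd_add ha₀ hh₀ ℓ (fun h hh => hu h hh) rfl
  have hφb : ∀ ℓ, Bdd (φ ℓ) := fun ℓ => T_bdd F _ (cInd_bdd F A p q t t' ℓ)
  have hterm : ∀ ℓ f g, Bdd (fun x => (φ ℓ (x - (p * q) • f) - φ ℓ (x - (p * q) • g)) ^ 2) := by
    intro ℓ f g
    have h1 : Bdd (fun x => φ ℓ (x - (p * q) • f) - φ ℓ (x - (p * q) • g)) :=
      ((hφb ℓ).comp _).sub ((hφb ℓ).comp _)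
    simpa [sq] using h1.mul h1
  set Sm : G → ℝ := fun x => ∑ ℓ, ∑ f ∈ F, ∑ g ∈ F, (φ ℓ (x - (p * q) • f) - φ ℓ (x - (p * q) • g)) ^ 2
    with hSm
  have hSmb : Bdd Sm := Bdd.sum _ _ fun ℓ _ => Bdd.sum _ _ fun f _ => Bdd.sum _ _ fun g _ => hterm ℓ f g
  have hSm0 : M Sm = 0 := by
    rw [hSm, hM.sum Finset.univ
      (fun ℓ x => ∑ f ∈ F, ∑ g ∈ F, (φ ℓ (x - (p * q) • f) - φ ℓ (x - (p * q) • g)) ^ 2)
      (fun ℓ _ => Bdd.sum _ _ fun f _ => Bdd.sum _ _ fun g _ => hterm ℓ f g)]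
    refine Finset.sum_eq_zero fun ℓ _ => ?_
    rw [hM.sum F (fun f x => ∑ g ∈ F, (φ ℓ (x - (p * q) • f) - φ ℓ (x - (p * q) • g)) ^ 2)
      (fun f _ => Bdd.sum _ _ fun g _ => hterm ℓ f g)]
    refine Finset.sum_eq_zero fun f hf => ?_
    rw [hM.sum F (fun g x => (φ ℓ (x - (p * q) • f) - φ ℓ (x - (p * q) • g)) ^ 2)
      (fun g _ => hterm ℓ f g)]
    refine Finset.sum_eq_zero fun g hg => ?_
    exact mean_sq_diff_zero hM S.hp S.hq S.hne S.card ht.dvd ht.ndvd ht'.dvd ht'.ndvd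
      (cInd_bdd F A p q t t' ℓ) (fun n m x => S.T_T_cInd ht ht' ℓ n m x) hf hg
  have hIb : Bdd (fun x => if x ∈ DefSet F (p * q) (fun x => lab F A p q t t' (cen x)) then (1 : ℝ) else 0) := by
    refine ⟨1, fun x => ?_⟩
    show |if x ∈ DefSet F (p * q) (fun x => lab F A p q t t' (cen x)) then (1 : ℝ) else 0| ≤ 1
    split_ifs <;> simp
  have hle : ∀ x, (if x ∈ DefSet F (p * q) (fun x => lab F A p q t t' (cen x)) then (1 : ℝ) else 0) ≤ Sm x := by
    intro x
    have hnn : ∀ ℓ f g, 0 ≤ (φ ℓ (x - (p * q) • f) - φ ℓ (x - (p * q) • g)) ^ 2 :=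
      fun ℓ f g => sq_nonneg _
    split_ifs with hx
    · obtain ⟨f, hf, g, hg, hne⟩ := hx
      set ℓ := lab F A p q t t' (cen (x - (p * q) • f)) with hℓ
      have h1 : φ ℓ (x - (p * q) • f) = 1 := by rw [hφval, if_pos hℓ.symm]
      have h2 : φ ℓ (x - (p * q) • g) = 0 := by
        rw [hφval, if_neg]
        exact fun h => hne h.symm
      have h3 : (φ ℓ (x - (p * q) • f) - φ ℓ (x - (p * q) • g)) ^ 2 = 1 := by
        rw [h1, h2]
        norm_num
      have h4 : (φ ℓ (x - (p * q) • f) - φ ℓ (x - (p * q) • g)) ^ 2 ≤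
          ∑ g ∈ F, (φ ℓ (x - (p * q) • f) - φ ℓ (x - (p * q) • g)) ^ 2 :=
        Finset.single_le_sum (f := fun g => (φ ℓ (x - (p * q) • f) - φ ℓ (x - (p * q) • g)) ^ 2)
          (fun g _ => hnn ℓ f g) hg
      have h5 : ∑ g ∈ F, (φ ℓ (x - (p * q) • f) - φ ℓ (x - (p * q) • g)) ^ 2 ≤
          ∑ f ∈ F, ∑ g ∈ F, (φ ℓ (x - (p * q) • f) - φ ℓ (x - (p * q) • g)) ^ 2 :=
        Finset.single_le_sum (f := fun f => ∑ g ∈ F, (φ ℓ (x - (p * q) • f) - φ ℓ (x - (p * q) • g)) ^ 2)
          (fun f _ => Finset.sum_nonneg fun g _ => hnn ℓ f g) hf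
      have h6 : ∑ f ∈ F, ∑ g ∈ F, (φ ℓ (x - (p * q) • f) - φ ℓ (x - (p * q) • g)) ^ 2 ≤ Sm x :=
        Finset.single_le_sum (f := fun ℓ => ∑ f ∈ F, ∑ g ∈ F,
          (φ ℓ (x - (p * q) • f) - φ ℓ (x - (p * q) • g)) ^ 2)
          (fun ℓ _ => Finset.sum_nonneg fun f _ => Finset.sum_nonneg fun g _ => hnn ℓ f g)
          (Finset.mem_univ ℓ)
      linarith
    · exact Finset.sum_nonneg fun ℓ _ => Finset.sum_nonneg fun f _ =>
        Finset.sum_nonneg fun g _ => hnn ℓ f g
  have h1 := hM.mono hIb hSmb hle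
  have h2 := hM.nonneg _ hIb (fun x => by
    show 0 ≤ if x ∈ DefSet F (p * q) (fun x => lab F A p q t t' (cen x)) then (1 : ℝ) else 0
    split_ifs <;> simp)
  linarith

open Classical in
/-- Clean windows: on any finite window some translate by a multiple of `p * q` has constant
labels along `x - (p * q) • F`. -/
theorem exists_clean [Module.Finite ℤ G] (S : Setup F A p q) (ht : PType p q t)
    (ht' : PType q p t') {cen : G → G}
    (huniq : ∀ x a h, a ∈ A → h ∈ F → x = a + (t + t') • h → a = cen x) (W : Finset G) :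
    ∃ v : G, ∀ w ∈ W, ∀ f ∈ F, ∀ g ∈ F,
      lab F A p q t t' (cen ((p * q) • v + w - (p * q) • f)) =
        lab F A p q t t' (cen ((p * q) • v + w - (p * q) • g)) := by
  obtain ⟨M, hM⟩ := exists_mean (G := G)
  have h0 := S.mean_defSet_zero ht ht' hM huniq
  obtain ⟨v, hv⟩ := exists_window hM (Nat.mul_pos S.hp.pos S.hq.pos) h0 W
  refine ⟨v, fun w hw f hf g hg => ?_⟩
  by_contra hne
  exact hv w hw ⟨f, hf, g, hg, hne⟩

end Setup

end Vale.Agent.Lib.P043.PQ
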