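import Vale.Agent.Lib.P043.PQ.Labels

/-!
Limits of translates of a tiling along clean windows, with an equivalence relation modulo
`p * q` chosen minimal, give a tiling with a product structure on its labels.
-/

namespace Vale.Agent.Lib.P043.PQ

open Finset Filter
open Vale.Agent.Lib.P043

variable {G : Type*} [AddCommGroup G]

/-- An equivalence relation on the classes modulo `p * q` is compatible with a tiling if it
relates the classes of a point, of its images under the dilated tile, and of the endpoints of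
all edges. -/
structure Compat (F : Finset G) (A : Set G) (p q t t' : ℕ) (r : Setoid (QQ G (p * q))) : Prop where
  base : ∀ a ∈ A, ∀ f ∈ F, r (toQ (p * q) (a + (t + t') • f)) (toQ (p * q) a)
  edge : ∀ a b, EE F A (p * q) t t' a b → r (toQ (p * q) a) (toQ (p * q) b)

lemma Compat.conn {F : Finset G} {A : Set G} {p q t t' : ℕ} {r : Setoid (QQ G (p * q))}
    (h : Compat F A p q t t' r) {a b : G} (hab : Conn F A (p * q) t t' a b) :
    r (toQ (p * q) a) (toQ (p * q) b) := by
  induction hab with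
  | refl => exact r.refl _
  | tail _ h2 ih => exact r.trans ih (h.edge _ _ h2)

/-- There is a tiling with a compatible relation that is minimal among all tilings. -/
lemma exists_minimal_compat [Module.Finite ℤ G] {F : Finset G} {p q t t' : ℕ} (hpq : 0 < p * q)
    {A₀ : Set G} (hA₀ : IsTile F A₀) :
    ∃ (A : Set G) (r : Setoid (QQ G (p * q))), IsTile F A ∧ Compat F A p q t t' r ∧
      ∀ (A' : Set G) (r' : Setoid (QQ G (p * q))), IsTile F A' → Compat F A' p q t t' r' →
        r' ≤ r → r ≤ r' := by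
  classical
  have hfinQ := finite_quot' (G := G) hpq
  have hfinS : Finite (Setoid (QQ G (p * q))) :=
    Finite.of_injective (fun r : Setoid (QQ G (p * q)) => (r.r : _ → _ → Prop))
      (fun r s h => Setoid.ext fun x y => by
        have := congrFun (congrFun h x) y
        exact iff_of_eq this)
  let Cand : Set (Setoid (QQ G (p * q))) :=
    {r | ∃ A, IsTile F A ∧ Compat F A p q t t' r}
  have hne : Cand.Nonempty := ⟨⊤, A₀, hA₀, ⟨fun _ _ _ _ => trivial, fun _ _ _ => trivial⟩⟩
  have hwf : WellFounded ((· < ·) : Setoid (QQ G (p * q)) → Setoid (QQ G (p * q)) → Prop) :=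
    Finite.to_wellFoundedLT.wf
  obtain ⟨r, ⟨A, hA, hAr⟩, hmin⟩ := hwf.has_min Cand hne
  refine ⟨A, r, hA, hAr, fun A' r' hA' hr' hle => ?_⟩
  by_contra hcon
  exact hmin r' ⟨A', hA', hr'⟩ (lt_of_le_not_ge hle hcon)

/-- The limit of the translates of a set along an ultrafilter. -/
def limSet (A : Set G) (U : Ultrafilter (Finset G)) (τ : Finset G → G) : Set G :=
  {x | ∀ᶠ W in (U : Filter (Finset G)), x + τ W ∈ A}

lemma eventually_limSet (A : Set G) (U : Ultrafilter (Finset G)) (τ : Finset G → G) (x : G) :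
    ∀ᶠ W in (U : Filter (Finset G)), (x ∈ limSet A U τ ↔ x + τ W ∈ A) := by
  by_cases hx : x ∈ limSet A U τ
  · have h1 : ∀ᶠ W in (U : Filter (Finset G)), x + τ W ∈ A := hx
    filter_upwards [h1] with W hW
    exact ⟨fun _ => hW, fun _ => hx⟩
  · have h1 : ∀ᶠ W in (U : Filter (Finset G)), x + τ W ∉ A := Ultrafilter.eventually_not.2 hx
    filter_upwards [h1] with W hW
    exact ⟨fun h => absurd h hx, fun h => absurd h hW⟩

lemma eventually_limSet_finset (A : Set G) (U : Ultrafilter (Finset G)) (τ : Finset G → G)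
    (P : Finset G) :
    ∀ᶠ W in (U : Filter (Finset G)), ∀ x ∈ P, (x ∈ limSet A U τ ↔ x + τ W ∈ A) :=
  (Filter.eventually_all_finset P).2 fun x _ => eventually_limSet A U τ x

/-- The limit of the relation of having equal labels. -/
def limRel {ι : Type*} (L : G → ι) (U : Ultrafilter (Finset G)) (τ : Finset G → G) (x y : G) : Prop :=
  ∀ᶠ W in (U : Filter (Finset G)), L (x + τ W) = L (y + τ W)

lemma eventually_limRel {ι : Type*} (L : G → ι) (U : Ultrafilter (Finset G)) (τ : Finset G → G)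
    (x y : G) :
    ∀ᶠ W in (U : Filter (Finset G)), (limRel L U τ x y ↔ L (x + τ W) = L (y + τ W)) := by
  by_cases hx : limRel L U τ x y
  · have h1 : ∀ᶠ W in (U : Filter (Finset G)), L (x + τ W) = L (y + τ W) := hx
    filter_upwards [h1] with W hW
    exact ⟨fun _ => hW, fun _ => hx⟩
  · have h1 : ∀ᶠ W in (U : Filter (Finset G)), L (x + τ W) ≠ L (y + τ W) :=
      Ultrafilter.eventually_not.2 hx
    filter_upwards [h1] with W hW
    exact ⟨fun h => absurd h hx, fun h => absurd h hW⟩

lemma limRel_refl {ι : Type*} (L : G → ι) (U : Ultrafilter (Finset G)) (τ : Finset G → G) (x : G) :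
    limRel L U τ x x := Filter.Eventually.of_forall fun _ => rfl

lemma limRel_symm {ι : Type*} {L : G → ι} {U : Ultrafilter (Finset G)} {τ : Finset G → G} {x y : G}
    (h : limRel L U τ x y) : limRel L U τ y x := by
  unfold limRel at *
  filter_upwards [h] with W hW using hW.symm

lemma limRel_trans {ι : Type*} {L : G → ι} {U : Ultrafilter (Finset G)} {τ : Finset G → G}
    {x y z : G} (h : limRel L U τ x y) (h' : limRel L U τ y z) : limRel L U τ x z := by
  unfold limRel at *
  filter_upwards [h, h'] with W hW hW' using hW.trans hW'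

/-- The limit of tilings is a tiling. -/
lemma limSet_isTile {F : Finset G} {A : Set G} (hA : IsTile F A) (U : Ultrafilter (Finset G))
    (τ : Finset G → G) : IsTile F (limSet A U τ) := by
  classical
  intro g
  obtain ⟨W, hW⟩ := (eventually_limSet_finset A U τ (F.image (fun f => g - f))).exists
  have hW' : ∀ f ∈ F, (g - f ∈ limSet A U τ ↔ g - f + τ W ∈ A) :=
    fun f hf => hW _ (Finset.mem_image_of_mem _ hf)
  obtain ⟨f, ⟨hf, hfA⟩, huniq⟩ := hA (g + τ W)
  have e : ∀ f, g + τ W - f = g - f + τ W := fun f => by abel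
  refine ⟨f, ⟨hf, (hW' f hf).2 (by rwa [← e])⟩, ?_⟩
  rintro f' ⟨hf', hf'A⟩
  exact huniq f' ⟨hf', by rw [e]; exact (hW' f' hf').1 hf'A⟩

/-- Two integers multiples criterion for being a multiple of `p * q`. -/
lemma exists_mul_smul {p q : ℕ} (hc : Nat.Coprime p q) {z α β : G} (h1 : z = p • α) (h2 : z = q • β) :
    ∃ γ, z = (p * q) • γ := by
  obtain ⟨a, b, hab⟩ := (Nat.isCoprime_iff_coprime.2 hc)
  have hz : z = a • (p • z) + b • (q • z) := by
    have h3 : (a * (p : ℤ) + b * (q : ℤ)) • z = z := by rw [hab, one_smul]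
    rw [add_smul, mul_smul, mul_smul] at h3
    simpa using h3.symm
  refine ⟨a • β + b • α, ?_⟩
  have h4 : p • z = (p * q) • β := by
    rw [mul_smul, ← h2]
  have h5 : q • z = (p * q) • α := by
    rw [mul_comm, mul_smul, ← h1]
  rw [h4, h5] at hz
  rw [smul_add, smul_comm (p * q) a, smul_comm (p * q) b]
  exact hz

section

variable {F : Finset G} {A : Set G} {p q t t' : ℕ}

open Classical in
/-- The points on the line through the base point, described without the base point. -/
lemma Setup.mem_line_iff (S : Setup F A p q) (ht : PType p q t) (ht' : PType q p t') {a h : G}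
    (ha : a ∈ A) (hh : h ∈ F) (f : G) :
    ((f ∈ F ∧ ∃ g ∈ F, a + (t + t') • h - t' • f - t • g ∈ A) ↔ f ∈ Line F A t' a h) ∧
    ((f ∈ F ∧ ∃ g ∈ F, a + (t + t') • h - t • f - t' • g ∈ A) ↔ f ∈ Line F A t a h) := by
  constructor
  · constructor
    · rintro ⟨hf, g, hg, hz⟩
      have h1 := (S.rect ht ht' ha hh hh).2.2.2 g hg f hf
      have e : a + t • h + t' • h - t • g - t' • f = a + (t + t') • h - t' • f - t • g := by
        rw [add_smul]
        abel
      rw [e] at h1
      exact (h1.1 hz).2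
    · intro hf
      have hf' := (mem_Line.1 hf).1
      refine ⟨hf', h, hh, ?_⟩
      have h1 := (S.rect ht ht' ha hh hh).2.2.2 h hh f hf'
      have e : a + t • h + t' • h - t • h - t' • f = a + (t + t') • h - t' • f - t • h := by
        rw [add_smul]
        abel
      rw [e] at h1
      exact h1.2 ⟨self_mem_Line ha hh, hf⟩
  · constructor
    · rintro ⟨hf, g, hg, hz⟩
      have h1 := (S.rect ht ht' ha hh hh).2.2.2 f hf g hg
      have e : a + t • h + t' • h - t • f - t' • g = a + (t + t') • h - t • f - t' • g := by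
        rw [add_smul]
        abel
      rw [e] at h1
      exact (h1.1 hz).1
    · intro hf
      have hf' := (mem_Line.1 hf).1
      refine ⟨hf', h, hh, ?_⟩
      have h1 := (S.rect ht ht' ha hh hh).2.2.2 f hf' h hh
      have e : a + t • h + t' • h - t • f - t' • h = a + (t + t') • h - t • f - t' • h := by
        rw [add_smul]
        abel
      rw [e] at h1
      exact h1.2 ⟨hf, self_mem_Line ha hh⟩

open Classical in
/-- The main structure theorem: a tiling with an equivalence relation on the classes modulo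
`p * q`, with the product property and the crossing property. -/
theorem exists_structured [Module.Finite ℤ G] (hp : p.Prime) (hq : q.Prime) (hne : p ≠ q)
    (hF : F.card = p * q) (ht : PType p q t) (ht' : PType q p t') (h0 : (0 : G) ∈ F)
    (hgen : AddSubgroup.closure (F : Set G) = ⊤) {A₀ : Set G} (hA₀ : IsTile F A₀) :
    ∃ (A : Set G) (r : Setoid (QQ G (p * q))), IsTile F A ∧
      (∀ a ∈ A, ∀ f ∈ F, ∀ g ∈ F, r (toQ (p * q) (a + t • f + t' • g)) (toQ (p * q) a)) ∧
      (∀ x₁ x₂ x₃ u v : G, r (toQ (p * q) x₁) (toQ (p * q) x₂) → x₃ = x₁ + p • u → x₃ = x₂ + q • v →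
        r (toQ (p * q) x₃) (toQ (p * q) x₁)) ∧
      (∀ x y : G, r (toQ (p * q) x) (toQ (p * q) y) →
        (F.filter (fun f => (∃ g ∈ F, x - t' • f - t • g ∈ A) ∧
          (∃ g ∈ F, y - t • f - t' • g ∈ A))).card = 1) := by
  have hpq : 0 < p * q := Nat.mul_pos hp.pos hq.pos
  obtain ⟨A, r, hA, hcomp, hmin⟩ := exists_minimal_compat (t := t) (t' := t') hpq hA₀
  have S : Setup F A p q := ⟨hp, hq, hne, hF, hA⟩
  obtain ⟨cen, hcen, huniq⟩ := S.exists_center ht ht'
  choose v hv using S.exists_clean ht ht' huniq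
  set τ : Finset G → G := fun W => (p * q) • v W with hτ
  set U : Ultrafilter (Finset G) := Ultrafilter.of atTop with hU
  have hUle : (U : Filter (Finset G)) ≤ atTop := Ultrafilter.of_le _
  have hWmem : ∀ y : G, ∀ᶠ W in (U : Filter (Finset G)), y ∈ W := by
    intro y
    refine hUle ?_
    filter_upwards [Filter.eventually_ge_atTop ({y} : Finset G)] with W hW
    exact Finset.singleton_subset_iff.1 hW
  set A₁ := limSet A U τ with hA₁
  set L : G → Set (Set F) × Set (QQ G (p * q)) := fun x => lab F A p q t t' (cen x) with hL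
  set R : G → G → Prop := limRel L U τ with hR
  have hcenA : ∀ a ∈ A, cen a = a := by
    intro a ha
    exact (huniq a a 0 ha h0 (by simp)).symm
  have hLA : ∀ a ∈ A, L a = lab F A p q t t' a := by
    intro a ha
    simp only [hL, hcenA a ha]
  -- invariance along multiples of `p * q`
  have hdiff : ∀ x f g, f ∈ F → g ∈ F → R (x + (p * q) • f - (p * q) • g) x := by
    intro x f g hf hg
    filter_upwards [hWmem (x + (p * q) • f)] with W hW
    have h1 := hv W _ hW g hg f hf
    have e1 : τ W + (x + (p * q) • f) - (p * q) • g = x + (p * q) • f - (p * q) • g + τ W := by abel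
    have e2 : τ W + (x + (p * q) • f) - (p * q) • f = x + τ W := by abel
    rw [← e1, ← e2]
    exact h1
  have hinv : ∀ (w x : G), R (x + (p * q) • w) x := by
    intro w
    have hw : w ∈ AddSubgroup.closure (F : Set G) := by rw [hgen]; exact AddSubgroup.mem_top w
    induction hw using AddSubgroup.closure_induction with
    | mem y hy =>
      intro x
      have := hdiff x y 0 hy h0
      simpa using this
    | zero =>
      intro x
      simpa using limRel_refl L U τ x
    | add a b _ _ ha hb =>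
      intro x
      have h1 := ha (x + (p * q) • b)
      have h2 := hb x
      have e : x + (p * q) • b + (p * q) • a = x + (p * q) • (a + b) := by
        rw [smul_add]
        abel
      rw [e] at h1
      exact limRel_trans h1 h2
    | neg a _ ha =>
      intro x
      have h1 := ha (x + (p * q) • (-a))
      have e : x + (p * q) • (-a) + (p * q) • a = x := by
        rw [smul_neg]
        abel
      rw [e] at h1
      exact limRel_symm h1
  -- the relation on classes
  let outQ : QQ G (p * q) → G := Quotient.out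
  have hout : ∀ x, R (outQ (toQ (p * q) x)) x := by
    intro x
    have h1 : toQ (p * q) (outQ (toQ (p * q) x)) = toQ (p * q) x := Quotient.out_eq _
    obtain ⟨w, hw⟩ := toQ_eq_iff.1 h1.symm
    rw [hw]
    exact hinv w x
  let r₁ : Setoid (QQ G (p * q)) :=
    ⟨fun y z => R (outQ y) (outQ z),
      ⟨fun y => limRel_refl L U τ _, fun h => limRel_symm h, fun h h' => limRel_trans h h'⟩⟩
  have hr₁ : ∀ x y, r₁ (toQ (p * q) x) (toQ (p * q) y) ↔ R x y := by
    intro x y
    have h1 := hout x
    have h2 := hout y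
    constructor
    · intro h
      have h3 : R (outQ (toQ (p * q) x)) (outQ (toQ (p * q) y)) := h
      exact limRel_trans (limRel_symm h1) (limRel_trans h3 h2)
    · intro h
      have h3 : R (outQ (toQ (p * q) x)) (outQ (toQ (p * q) y)) :=
        limRel_trans h1 (limRel_trans h (limRel_symm h2))
      exact h3
  have hS3 : ∀ a ∈ A₁, ∀ f ∈ F, ∀ g ∈ F, R (a + t • f + t' • g) a := by
    intro a ha f hf g hg
    have ha' : ∀ᶠ W in (U : Filter (Finset G)), a + τ W ∈ A := ha
    filter_upwards [ha'] with W hW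
    obtain ⟨ha₀, h, hh, hz⟩ := hcen (a + t • f + t' • g + τ W)
    have hconn : Conn F A (p * q) t t' (a + τ W) (cen (a + t • f + t' • g + τ W)) := by
      refine S.rect_conn ht ht' (n := 0) (m := 0) hW hf hg hh ha₀ ?_
      simp only [mul_zero, add_zero]
      rw [add_assoc, ← add_smul, ← hz]
      abel
    show L _ = L _
    rw [hLA _ hW]
    exact (lab_eq_of_conn hconn).symm
  have hedge : ∀ a b, EE F A₁ (p * q) t t' a b → R a b := by
    rintro a b (⟨ha, hb, n, f, hf, f', hf', hab⟩ | ⟨ha, hb, n, f, hf, f', hf', hab⟩)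
    · have ha' : ∀ᶠ W in (U : Filter (Finset G)), a + τ W ∈ A := ha
      have hb' : ∀ᶠ W in (U : Filter (Finset G)), b + τ W ∈ A := hb
      filter_upwards [ha', hb'] with W hWa hWb
      have he : Edge F A (p * q) t (a + τ W) (b + τ W) :=
        ⟨hWa, hWb, n, f, hf, f', hf', by rw [hab]; abel⟩
      have hconn : Conn F A (p * q) t t' (a + τ W) (b + τ W) :=
        Relation.ReflTransGen.single (Or.inl he)
      show L _ = L _
      rw [hLA _ hWa, hLA _ hWb]
      exact lab_eq_of_conn hconn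
    · have ha' : ∀ᶠ W in (U : Filter (Finset G)), a + τ W ∈ A := ha
      have hb' : ∀ᶠ W in (U : Filter (Finset G)), b + τ W ∈ A := hb
      filter_upwards [ha', hb'] with W hWa hWb
      have he : Edge F A (p * q) t' (a + τ W) (b + τ W) :=
        ⟨hWa, hWb, n, f, hf, f', hf', by rw [hab]; abel⟩
      have hconn : Conn F A (p * q) t t' (a + τ W) (b + τ W) :=
        Relation.ReflTransGen.single (Or.inr he)
      show L _ = L _
      rw [hLA _ hWa, hLA _ hWb]
      exact lab_eq_of_conn hconn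
  have hcomp₁ : Compat F A₁ p q t t' r₁ := by
    refine ⟨fun a ha f hf => (hr₁ _ _).2 ?_, fun a b hab => (hr₁ _ _).2 (hedge a b hab)⟩
    have := hS3 a ha f hf f hf
    rwa [add_assoc, ← add_smul] at this
  have hτQ : ∀ x W, toQ (p * q) (x + τ W) = toQ (p * q) x := fun x W => toQ_add_nsmul _ _ _
  have hRr : ∀ x y, R x y → r (toQ (p * q) x) (toQ (p * q) y) := by
    intro x y hxy
    obtain ⟨W, hW⟩ := Filter.Eventually.exists hxy
    obtain ⟨ha₁, h₁, hh₁, hz₁⟩ := hcen (x + τ W)
    obtain ⟨ha₂, h₂, hh₂, hz₂⟩ := hcen (y + τ W)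
    set a₁ := cen (x + τ W) with ha₁def
    set a₂ := cen (y + τ W) with ha₂def
    have hLab : lab F A p q t t' a₁ = lab F A p q t t' a₂ := hW
    have hmem : toQ (p * q) a₂ ∈ (lab F A p q t t' a₂).2 := ⟨a₂, Conn.refl' _ _ _ _ _ _, rfl⟩
    rw [← hLab] at hmem
    obtain ⟨b, hb, hbq⟩ := hmem
    have h1 : r (toQ (p * q) x) (toQ (p * q) a₁) := by
      rw [← hτQ x W, hz₁]
      exact hcomp.base a₁ ha₁ h₁ hh₁
    have h2 : r (toQ (p * q) a₁) (toQ (p * q) a₂) := by
      rw [hbq]
      exact hcomp.conn hb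
    have h3 : r (toQ (p * q) y) (toQ (p * q) a₂) := by
      rw [← hτQ y W, hz₂]
      exact hcomp.base a₂ ha₂ h₂ hh₂
    exact r.trans (r.trans h1 h2) (r.symm h3)
  have hle : r₁ ≤ r := by
    intro y z hyz
    obtain ⟨x, rfl⟩ := QuotientAddGroup.mk_surjective y
    obtain ⟨x', rfl⟩ := QuotientAddGroup.mk_surjective z
    exact hRr _ _ ((hr₁ _ _).1 hyz)
  have hge : r ≤ r₁ := hmin A₁ r₁ (limSet_isTile hA U τ) hcomp₁ hle
  have hrr : ∀ x y, r (toQ (p * q) x) (toQ (p * q) y) ↔ R x y := fun x y =>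
    ⟨fun h => (hr₁ x y).1 (hge h), hRr x y⟩
  refine ⟨A₁, r, limSet_isTile hA U τ, fun a ha f hf g hg => (hrr _ _).2 (hS3 a ha f hf g hg),
    ?_, ?_⟩
  · -- the product property
    intro x₁ x₂ x₃ u w h12 hx31 hx32
    have hR12 : R x₁ x₂ := (hrr _ _).1 h12
    obtain ⟨W, hW⟩ := Filter.Eventually.exists hR12
    obtain ⟨ha₁, h₁, hh₁, hz₁⟩ := hcen (x₁ + τ W)
    obtain ⟨ha₂, h₂, hh₂, hz₂⟩ := hcen (x₂ + τ W)
    set b₁ := cen (x₁ + τ W) with hb₁def
    set b₂ := cen (x₂ + τ W) with hb₂def
    have hLab : lab F A p q t t' b₁ = lab F A p q t t' b₂ := hW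
    have hmem : toQ (p * q) b₂ ∈ (lab F A p q t t' b₂).2 := ⟨b₂, Conn.refl' _ _ _ _ _ _, rfl⟩
    rw [← hLab] at hmem
    obtain ⟨b₂', hb₂', hbq⟩ := hmem
    obtain ⟨b, hb, ⟨u', hu'⟩, ⟨v', hv'⟩⟩ := S.prod_of_conn ht ht' hb₂'
    have hbA : b ∈ A := hb.mem ha₁
    set y := b + t • h₂ + t' • h₁ with hy
    obtain ⟨ha₀, h₀, hh₀, hz₀⟩ := hcen y
    have hconn : Conn F A (p * q) t t' b (cen y) := by
      refine S.rect_conn ht ht' (n := 0) (m := 0) hbA hh₂ hh₁ hh₀ ha₀ ?_
      simp only [mul_zero, add_zero]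
      rw [add_assoc, ← add_smul, ← hz₀, hy]
    have c1 : r (toQ (p * q) y) (toQ (p * q) (cen y)) := by
      have := hcomp.base _ ha₀ h₀ hh₀
      rwa [← hz₀] at this
    have c2 : r (toQ (p * q) (cen y)) (toQ (p * q) b) := r.symm (hcomp.conn hconn)
    have c3 : r (toQ (p * q) b) (toQ (p * q) b₁) := r.symm (hcomp.conn hb)
    have c4 : r (toQ (p * q) b₁) (toQ (p * q) x₁) := by
      rw [← hτQ x₁ W, hz₁]
      exact r.symm (hcomp.base _ ha₁ h₁ hh₁)
    have hchain : r (toQ (p * q) y) (toQ (p * q) x₁) := r.trans (r.trans (r.trans c1 c2) c3) c4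
    obtain ⟨d, hd⟩ := ht.dvd
    obtain ⟨d', hd'⟩ := ht'.dvd
    obtain ⟨z, hz⟩ := toQ_eq_iff.1 hbq
    have hcop : Nat.Coprime p q := (Nat.coprime_primes hp hq).2 hne
    have hτpq : ∀ W, τ W = p • (q • v W) ∧ τ W = q • (p • v W) := by
      intro W
      refine ⟨by rw [← mul_smul], by rw [← mul_smul, mul_comm]⟩
    have hyp : y - x₃ = p • (u' + d • (h₂ - h₁) + q • v W - u) := by
      have e1 : x₁ = b₁ + (t + t') • h₁ - τ W := by rw [← hz₁]; abel
      rw [hy, hu', hx31, e1, (hτpq W).1, hd]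
      simp only [add_smul, mul_smul, smul_add, smul_sub]
      abel
    have hyq : y - x₃ = q • (p • z - v' + d' • (h₁ - h₂) + p • v W - w) := by
      have e1 : x₂ = b₂ + (t + t') • h₂ - τ W := by rw [← hz₂]; abel
      have e2 : b = b₂ + (p * q) • z - q • v' := by
        rw [← hz, hv']
        abel
      have e3 : (p * q) • z = q • (p • z) := by rw [← mul_smul, mul_comm]
      rw [hy, e2, hx32, e1, (hτpq W).2, e3, hd']
      simp only [add_smul, mul_smul, smul_add, smul_sub]
      abel
    obtain ⟨γ, hγ⟩ := exists_mul_smul hcop hyp hyq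
    have hQ : toQ (p * q) x₃ = toQ (p * q) y := toQ_eq_iff.2 ⟨γ, by rw [← hγ]; abel⟩
    rw [hQ]
    exact hchain
  · -- the crossing property
    intro x y hxy
    have hRxy : R x y := (hrr _ _).1 hxy
    set P : Finset G := (F ×ˢ F).image (fun z => x - t' • z.1 - t • z.2) ∪
      (F ×ˢ F).image (fun z => y - t • z.1 - t' • z.2) with hP
    obtain ⟨W, hWP, hW⟩ := ((eventually_limSet_finset A U τ P).and hRxy).exists
    have hP1 : ∀ f ∈ F, ∀ g ∈ F, (x - t' • f - t • g ∈ A₁ ↔ x + τ W - t' • f - t • g ∈ A) := by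
      intro f hf g hg
      have h1 := hWP (x - t' • f - t • g) (Finset.mem_union_left _ (Finset.mem_image.2
        ⟨(f, g), Finset.mem_product.2 ⟨hf, hg⟩, rfl⟩))
      rw [h1]
      have e : x - t' • f - t • g + τ W = x + τ W - t' • f - t • g := by abel
      rw [e]
    have hP2 : ∀ f ∈ F, ∀ g ∈ F, (y - t • f - t' • g ∈ A₁ ↔ y + τ W - t • f - t' • g ∈ A) := by
      intro f hf g hg
      have h1 := hWP (y - t • f - t' • g) (Finset.mem_union_right _ (Finset.mem_image.2
        ⟨(f, g), Finset.mem_product.2 ⟨hf, hg⟩, rfl⟩))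
      rw [h1]
      have e : y - t • f - t' • g + τ W = y + τ W - t • f - t' • g := by abel
      rw [e]
    obtain ⟨ha₁, h₁, hh₁, hz₁⟩ := hcen (x + τ W)
    obtain ⟨ha₂, h₂, hh₂, hz₂⟩ := hcen (y + τ W)
    set a₁ := cen (x + τ W) with ha₁def
    set a₂ := cen (y + τ W) with ha₂def
    have hLab : lab F A p q t t' a₁ = lab F A p q t t' a₂ := hW
    have hfil : F.filter (fun f => (∃ g ∈ F, x - t' • f - t • g ∈ A₁) ∧
        (∃ g ∈ F, y - t • f - t' • g ∈ A₁)) = Line F A t a₂ h₂ ∩ Line F A t' a₁ h₁ := by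
      ext f
      rw [Finset.mem_filter, Finset.mem_inter, ← (S.mem_line_iff ht ht' ha₂ hh₂ f).2,
        ← (S.mem_line_iff ht ht' ha₁ hh₁ f).1, ← hz₁, ← hz₂]
      constructor
      · rintro ⟨hf, ⟨g, hg, h1⟩, ⟨g', hg', h2⟩⟩
        exact ⟨⟨hf, g', hg', (hP2 f hf g' hg').1 h2⟩, ⟨hf, g, hg, (hP1 f hf g hg).1 h1⟩⟩
      · rintro ⟨⟨hf, g', hg', h2⟩, ⟨_, g, hg, h1⟩⟩
        exact ⟨hf, ⟨g, hg, (hP1 f hf g hg).2 h1⟩, ⟨g', hg', (hP2 f hf g' hg').2 h2⟩⟩
    rw [hfil]
    have hmem : lineSet F A t a₂ h₂ ∈ (lab F A p q t t' a₂).1 :=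
      ⟨a₂, Conn.refl' _ _ _ _ _ _, h₂, hh₂, rfl⟩
    rw [← hLab] at hmem
    obtain ⟨b, hb, f₀, hf₀, hS⟩ := hmem
    rw [lineSet_eq_iff.1 hS]
    exact S.cross_of_conn ht ht' ha₁ hb hf₀ hh₁

end

end Vale.Agent.Lib.P043.PQ
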