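import Vale.Agent.Lib.P043.Basic

/-!
Translation invariant means on bounded functions on a finitely generated abelian group, and
their consequences: nilpotent operators vanish in mean square, and sets of mean zero miss
translates of any finite window along a subgroup of finite index.
-/

namespace Vale.Agent.Lib.P043.PQ

open Finset Filter Topology
open Vale.Agent.Lib.P043

variable {G : Type*} [AddCommGroup G]

/-- Bounded real function. -/
def Bdd (u : G → ℝ) : Prop := ∃ B, ∀ x, |u x| ≤ B

omit [AddCommGroup G] in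
lemma Bdd.const (c : ℝ) : Bdd (fun _ : G => c) := ⟨|c|, fun _ => le_rfl⟩

omit [AddCommGroup G] in
lemma Bdd.add {u v : G → ℝ} (hu : Bdd u) (hv : Bdd v) : Bdd (fun x => u x + v x) := by
  obtain ⟨B, hB⟩ := hu
  obtain ⟨C, hC⟩ := hv
  exact ⟨B + C, fun x => (abs_add_le _ _).trans (add_le_add (hB x) (hC x))⟩

omit [AddCommGroup G] in
lemma Bdd.neg {u : G → ℝ} (hu : Bdd u) : Bdd (fun x => - u x) := by
  obtain ⟨B, hB⟩ := hu
  exact ⟨B, fun x => by rw [abs_neg]; exact hB x⟩

omit [AddCommGroup G] in
lemma Bdd.sub {u v : G → ℝ} (hu : Bdd u) (hv : Bdd v) : Bdd (fun x => u x - v x) := by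
  simpa [sub_eq_add_neg] using hu.add hv.neg

omit [AddCommGroup G] in
lemma Bdd.mul {u v : G → ℝ} (hu : Bdd u) (hv : Bdd v) : Bdd (fun x => u x * v x) := by
  obtain ⟨B, hB⟩ := hu
  obtain ⟨C, hC⟩ := hv
  refine ⟨B * C, fun x => ?_⟩
  rw [abs_mul]
  exact mul_le_mul (hB x) (hC x) (abs_nonneg _) ((abs_nonneg _).trans (hB x))

omit [AddCommGroup G] in
lemma Bdd.cmul {u : G → ℝ} (c : ℝ) (hu : Bdd u) : Bdd (fun x => c * u x) :=
  (Bdd.const c).mul hu

omit [AddCommGroup G] in
lemma Bdd.comp {u : G → ℝ} (hu : Bdd u) (e : G → G) : Bdd (fun x => u (e x)) := by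
  obtain ⟨B, hB⟩ := hu
  exact ⟨B, fun x => hB _⟩

omit [AddCommGroup G] in
lemma Bdd.sum {ι : Type*} (s : Finset ι) (u : ι → G → ℝ) (h : ∀ i ∈ s, Bdd (u i)) :
    Bdd (fun x => ∑ i ∈ s, u i x) := by
  classical
  induction s using Finset.induction_on with
  | empty => simpa using Bdd.const (G := G) 0
  | insert a s ha ih =>
    have h1 := h a (Finset.mem_insert_self a s)
    have h2 := ih (fun i hi => h i (Finset.mem_insert_of_mem hi))
    simpa [Finset.sum_insert ha] using h1.add h2

/-- A positive normalized linear functional on bounded functions. -/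
structure PreMean (M : (G → ℝ) → ℝ) : Prop where
  add : ∀ u v, Bdd u → Bdd v → M (fun x => u x + v x) = M u + M v
  smul : ∀ (c : ℝ) u, Bdd u → M (fun x => c * u x) = c * M u
  nonneg : ∀ u, Bdd u → (∀ x, 0 ≤ u x) → 0 ≤ M u
  one : M (fun _ => 1) = 1

/-- Invariance under a translation. -/
def InvAt (M : (G → ℝ) → ℝ) (g : G) : Prop := ∀ u, Bdd u → M (fun x => u (x + g)) = M u

namespace PreMean

variable {M : (G → ℝ) → ℝ}

lemma zero (h : PreMean M) : M (fun _ => 0) = 0 := by
  have := h.smul 0 (fun _ => 1) (Bdd.const 1)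
  simpa using this

lemma neg (h : PreMean M) {u : G → ℝ} (hu : Bdd u) : M (fun x => - u x) = - M u := by
  have := h.smul (-1) u hu
  simpa using this

lemma sub (h : PreMean M) {u v : G → ℝ} (hu : Bdd u) (hv : Bdd v) :
    M (fun x => u x - v x) = M u - M v := by
  have h1 := h.add u (fun x => - v x) hu hv.neg
  rw [h.neg hv] at h1
  simpa [sub_eq_add_neg] using h1

lemma const (h : PreMean M) (c : ℝ) : M (fun _ => c) = c := by
  have := h.smul c (fun _ => 1) (Bdd.const 1)
  simpa [h.one] using this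

lemma mono (h : PreMean M) {u v : G → ℝ} (hu : Bdd u) (hv : Bdd v) (huv : ∀ x, u x ≤ v x) :
    M u ≤ M v := by
  have h1 := h.nonneg _ (hv.sub hu) (fun x => sub_nonneg.2 (huv x))
  rw [h.sub hv hu] at h1
  linarith

lemma abs_le (h : PreMean M) {u : G → ℝ} {B : ℝ} (hB : ∀ x, |u x| ≤ B) : |M u| ≤ B := by
  have hu : Bdd u := ⟨B, hB⟩
  have h1 := h.mono hu (Bdd.const B) (fun x => (le_abs_self _).trans (hB x))
  have h2 := h.mono (Bdd.const (-B)) hu (fun x => by
    have := neg_abs_le (u x)
    linarith [hB x])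
  rw [h.const] at h1 h2
  exact _root_.abs_le.2 ⟨h2, h1⟩

lemma sum (h : PreMean M) {ι : Type*} (s : Finset ι) (u : ι → G → ℝ) (hu : ∀ i ∈ s, Bdd (u i)) :
    M (fun x => ∑ i ∈ s, u i x) = ∑ i ∈ s, M (u i) := by
  classical
  induction s using Finset.induction_on with
  | empty => simpa using h.zero
  | insert a s ha ih =>
    have h1 := hu a (Finset.mem_insert_self a s)
    have h2 : ∀ i ∈ s, Bdd (u i) := fun i hi => hu i (Finset.mem_insert_of_mem hi)
    have h3 := h.add (u a) (fun x => ∑ i ∈ s, u i x) h1 (Bdd.sum s u h2)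
    simp only [Finset.sum_insert ha]
    rw [h3, ih h2]

end PreMean

/-- The ultrafilter on the natural numbers used to average. -/
noncomputable def natU : Ultrafilter ℕ := Filter.hyperfilter ℕ

lemma natU_le : (natU : Filter ℕ) ≤ atTop := by
  unfold natU
  rw [← Nat.cofinite_eq_atTop]
  exact Filter.hyperfilter_le_cofinite

/-- Cesaro averages of the translates along `g`. -/
noncomputable def avg (M : (G → ℝ) → ℝ) (g : G) (u : G → ℝ) (n : ℕ) : ℝ :=
  ((n : ℝ) + 1)⁻¹ * ∑ i ∈ Finset.range (n + 1), M (fun x => u (x + i • g))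

/-- The limit of the averages along the ultrafilter. -/
noncomputable def limAvg (M : (G → ℝ) → ℝ) (g : G) (u : G → ℝ) : ℝ :=
  limUnder (natU : Filter ℕ) (avg M g u)

namespace PreMean

variable {M : (G → ℝ) → ℝ}

lemma avg_abs_le (h : PreMean M) (g : G) {u : G → ℝ} {B : ℝ} (hB : ∀ x, |u x| ≤ B) (n : ℕ) :
    |avg M g u n| ≤ B := by
  unfold avg
  have hn : (0 : ℝ) < (n : ℝ) + 1 := by positivity
  rw [abs_mul, abs_of_pos (inv_pos.2 hn), inv_mul_le_iff₀ hn]
  refine (Finset.abs_sum_le_sum_abs _ _).trans ?_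
  calc ∑ i ∈ Finset.range (n + 1), |M (fun x => u (x + i • g))|
      ≤ ∑ _i ∈ Finset.range (n + 1), B :=
        Finset.sum_le_sum fun i _ => h.abs_le (fun x => hB _)
    _ = ((n : ℝ) + 1) * B := by simp

lemma tendsto_avg (h : PreMean M) (g : G) {u : G → ℝ} (hu : Bdd u) :
    Tendsto (avg M g u) (natU : Filter ℕ) (𝓝 (limAvg M g u)) := by
  obtain ⟨B, hB⟩ := hu
  have hmem : ∀ n, avg M g u n ∈ Set.Icc (-B) B := fun n =>
    _root_.abs_le.1 (h.avg_abs_le g hB n)
  have hcomp : IsCompact (Set.Icc (-B) B) := isCompact_Icc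
  have hle : (natU.map (avg M g u) : Filter ℝ) ≤ 𝓟 (Set.Icc (-B) B) := by
    rw [Ultrafilter.coe_map, le_principal_iff, Filter.mem_map]
    exact Filter.Eventually.of_forall hmem
  obtain ⟨L, _, hL⟩ := hcomp.ultrafilter_le_nhds (natU.map (avg M g u)) hle
  exact tendsto_nhds_limUnder ⟨L, hL⟩

/-- The averaged functional is again a mean. -/
lemma limAvg_preMean (h : PreMean M) (g : G) : PreMean (limAvg M g) := by
  refine ⟨fun u v hu hv => ?_, fun c u hu => ?_, fun u hu hpos => ?_, ?_⟩
  · have h1 := (h.tendsto_avg g hu).add (h.tendsto_avg g hv)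
    have h2 := h.tendsto_avg g (hu.add hv)
    refine tendsto_nhds_unique h2 (h1.congr fun n => ?_)
    unfold avg
    rw [← mul_add, ← Finset.sum_add_distrib]
    congr 1
    refine Finset.sum_congr rfl fun i _ => ?_
    exact (h.add _ _ (hu.comp _) (hv.comp _)).symm
  · have h1 := (h.tendsto_avg g hu).const_mul c
    have h2 := h.tendsto_avg g (hu.cmul c)
    refine tendsto_nhds_unique h2 (h1.congr fun n => ?_)
    unfold avg
    rw [mul_left_comm, Finset.mul_sum]
    congr 1
    refine Finset.sum_congr rfl fun i _ => ?_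
    exact (h.smul c _ (hu.comp _)).symm
  · refine ge_of_tendsto' (h.tendsto_avg g hu) fun n => ?_
    unfold avg
    refine mul_nonneg (by positivity) (Finset.sum_nonneg fun i _ => ?_)
    exact h.nonneg _ (hu.comp _) (fun x => hpos _)
  · have h2 := h.tendsto_avg g (Bdd.const (G := G) 1)
    refine tendsto_nhds_unique h2 (tendsto_const_nhds.congr fun n => ?_)
    unfold avg
    simp only [h.one]
    simp
    field_simp

/-- Invariance under a translation is preserved by averaging. -/
lemma limAvg_inv (h : PreMean M) (g : G) {w : G} (hw : InvAt M w) : InvAt (limAvg M g) w := by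
  intro u hu
  have h1 := h.tendsto_avg g hu
  have h2 := h.tendsto_avg g (hu.comp (fun x => x + w))
  refine tendsto_nhds_unique h2 (h1.congr fun n => ?_)
  unfold avg
  congr 1
  refine Finset.sum_congr rfl fun i _ => ?_
  have h3 := hw (fun x => u (x + i • g)) (hu.comp _)
  rw [← h3]
  congr 1
  funext x
  congr 1
  abel

/-- The averaged functional is invariant under the averaging direction. -/
lemma limAvg_self (h : PreMean M) (g : G) : InvAt (limAvg M g) g := by
  intro u hu
  have h1 := h.tendsto_avg g hu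
  have h2 := h.tendsto_avg g (hu.comp (fun x => x + g))
  have hsub : Tendsto (fun n => avg M g (fun x => u (x + g)) n - avg M g u n)
      (natU : Filter ℕ) (𝓝 0) := by
    obtain ⟨B, hB⟩ := hu
    have hform : ∀ n : ℕ, avg M g (fun x => u (x + g)) n - avg M g u n =
        ((n : ℝ) + 1)⁻¹ * (M (fun x => u (x + (n + 1) • g)) - M (fun x => u (x + 0 • g))) := by
      intro n
      unfold avg
      rw [← mul_sub, ← Finset.sum_sub_distrib]
      congr 1
      have hs : ∀ i ∈ Finset.range (n + 1), M (fun x => (fun y => u (y + g)) (x + i • g)) -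
          M (fun x => u (x + i • g)) =
          M (fun x => u (x + (i + 1) • g)) - M (fun x => u (x + i • g)) := by
        intro i _
        congr 2
        funext x
        show u (x + i • g + g) = _
        congr 1
        rw [add_smul, one_smul]
        abel
      refine (Finset.sum_congr rfl hs).trans ?_
      exact Finset.sum_range_sub (fun i : ℕ => M (fun x => u (x + i • g))) (n + 1)
    have hbound : ∀ n : ℕ, |avg M g (fun x => u (x + g)) n - avg M g u n| ≤
        ((n : ℝ) + 1)⁻¹ * (2 * B) := by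
      intro n
      rw [hform, abs_mul, abs_of_pos (inv_pos.2 (by positivity : (0 : ℝ) < (n : ℝ) + 1))]
      refine mul_le_mul_of_nonneg_left ?_ (by positivity)
      have h3 : |M (fun x => u (x + (n + 1) • g))| ≤ B := h.abs_le (fun x => hB _)
      have h4 : |M (fun x => u (x + 0 • g))| ≤ B := h.abs_le (fun x => hB _)
      calc _ ≤ |M (fun x => u (x + (n + 1) • g))| + |M (fun x => u (x + 0 • g))| := abs_sub _ _
        _ ≤ 2 * B := by linarith
    have hzero : Tendsto (fun n : ℕ => ((n : ℝ) + 1)⁻¹ * (2 * B)) atTop (𝓝 0) := by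
      have h5 : Tendsto (fun n : ℕ => ((n : ℝ) + 1)⁻¹) atTop (𝓝 0) := by
        have := tendsto_one_div_add_atTop_nhds_zero_nat (𝕜 := ℝ)
        simpa [one_div] using this
      simpa using h5.mul_const (2 * B)
    exact squeeze_zero_norm (fun n => by simpa using hbound n) (hzero.mono_left natU_le)
  have h3 := h2.sub h1
  exact sub_eq_zero.1 (tendsto_nhds_unique h3 hsub)

end PreMean

/-- Translation invariant means on a finitely generated abelian group. -/
structure IsMean (M : (G → ℝ) → ℝ) : Prop extends PreMean M where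
  shift : ∀ g, InvAt M g

lemma exists_preMean_inv (S : Finset G) : ∃ M : (G → ℝ) → ℝ, PreMean M ∧ ∀ g ∈ S, InvAt M g := by
  classical
  induction S using Finset.induction_on with
  | empty =>
    refine ⟨fun u => u 0, ⟨fun _ _ _ _ => rfl, fun _ _ _ => rfl, fun _ _ h => h 0, rfl⟩, ?_⟩
    simp
  | insert g S _ ih =>
    obtain ⟨M, hM, hinv⟩ := ih
    refine ⟨limAvg M g, hM.limAvg_preMean g, fun w hw => ?_⟩
    rcases Finset.mem_insert.1 hw with rfl | hw
    · exact hM.limAvg_self w
    · exact hM.limAvg_inv g (hinv w hw)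

theorem exists_mean [Module.Finite ℤ G] : ∃ M : (G → ℝ) → ℝ, IsMean M := by
  classical
  have hfg : AddGroup.FG G := Module.Finite.iff_addGroup_fg.1 inferInstance
  obtain ⟨S, hS⟩ := (AddGroup.fg_def.1 hfg)
  obtain ⟨M, hM, hinv⟩ := exists_preMean_inv S
  refine ⟨M, { hM with shift := fun g => ?_ }⟩
  have hg : g ∈ AddSubgroup.closure (S : Set G) := by rw [hS]; exact AddSubgroup.mem_top g
  induction hg using AddSubgroup.closure_induction with
  | mem x hx => exact hinv x hx
  | zero =>
    intro u _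
    simp
  | add x y _ _ hx hy =>
    intro u hu
    have h1 := hx (fun z => u (z + y)) (hu.comp _)
    rw [← hy u hu, ← h1]
    congr 1
    funext z
    congr 1
    abel
  | neg x _ hx =>
    intro u hu
    have h1 := hx (fun z => u (z + -x)) (hu.comp _)
    rw [← h1]
    congr 1
    funext z
    congr 1
    abel

namespace IsMean

variable {M : (G → ℝ) → ℝ}

lemma mul_le_of_sq_zero (h : IsMean M) {v w : G → ℝ} (hv : Bdd v) (hw : Bdd w)
    (h0 : M (fun x => w x ^ 2) = 0) : M (fun x => v x * w x) ≤ 0 := by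
  have hvv : Bdd (fun x => v x ^ 2) := by simpa [sq] using hv.mul hv
  have hww : Bdd (fun x => w x ^ 2) := by simpa [sq] using hw.mul hw
  have hvw : Bdd (fun x => v x * w x) := hv.mul hw
  by_contra hcon
  have hpos : 0 < M (fun x => v x * w x) := not_le.1 hcon
  have hvpos : 0 ≤ M (fun x => v x ^ 2) := h.nonneg _ hvv (fun x => sq_nonneg _)
  set A := M (fun x => v x ^ 2) with hA
  set C := M (fun x => v x * w x) with hC
  set ε := C / (A + 1) with hε
  have hεpos : 0 < ε := div_pos hpos (by linarith)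
  have hkey : ∀ x, 2 * (v x * w x) ≤ ε * v x ^ 2 + ε⁻¹ * w x ^ 2 := by
    intro x
    have h1 : 0 ≤ ε⁻¹ * (ε * v x - w x) ^ 2 := mul_nonneg (inv_pos.2 hεpos).le (sq_nonneg _)
    have h2 : ε⁻¹ * (ε * v x - w x) ^ 2 = ε * v x ^ 2 + ε⁻¹ * w x ^ 2 - 2 * (v x * w x) := by
      field_simp
      ring
    linarith
  have hmono := h.mono (hvw.cmul 2) ((hvv.cmul ε).add (hww.cmul ε⁻¹)) hkey
  rw [h.add _ _ (hvv.cmul ε) (hww.cmul ε⁻¹), h.smul _ _ hvw, h.smul _ _ hvv, h.smul _ _ hww, h0] at hmono
  have h3 : ε * A < C := by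
    rw [hε, div_mul_eq_mul_div, div_lt_iff₀ (by linarith)]
    nlinarith
  linarith

end IsMean

section act

lemma bdd_act (r : AddMonoidAlgebra ℝ G) {v : G → ℝ} (hv : Bdd v) : Bdd (act ℝ r v) := by
  induction r using AddMonoidAlgebra.induction_linear with
  | zero =>
    have : act ℝ (0 : AddMonoidAlgebra ℝ G) v = fun _ => 0 := by
      funext x
      simp
    rw [this]
    exact Bdd.const 0
  | add r₁ r₂ h₁ h₂ =>
    have : act ℝ (r₁ + r₂) v = fun x => act ℝ r₁ v x + act ℝ r₂ v x := by
      funext x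
      simp [map_add]
    rw [this]
    exact h₁.add h₂
  | single h c =>
    have : act ℝ (AddMonoidAlgebra.single h c) v = fun x => c * v (x - h) := by
      funext x
      rw [act_single]
    rw [this]
    exact (hv.comp _).cmul c

/-- Adjoint of a group algebra element with respect to an invariant mean. -/
lemma exists_adjoint {M : (G → ℝ) → ℝ} (h : IsMean M) (r : AddMonoidAlgebra ℝ G) :
    ∃ r' : AddMonoidAlgebra ℝ G, ∀ v w : G → ℝ, Bdd v → Bdd w →
      M (fun x => act ℝ r v x * w x) = M (fun x => v x * act ℝ r' w x) := by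
  induction r using AddMonoidAlgebra.induction_linear with
  | zero =>
    refine ⟨0, fun v w _ _ => ?_⟩
    simp
  | add r₁ r₂ h₁ h₂ =>
    obtain ⟨r₁', h₁'⟩ := h₁
    obtain ⟨r₂', h₂'⟩ := h₂
    refine ⟨r₁' + r₂', fun v w hv hw => ?_⟩
    have e1 : (fun x => act ℝ (r₁ + r₂) v x * w x) =
        fun x => act ℝ r₁ v x * w x + act ℝ r₂ v x * w x := by
      funext x
      simp [map_add, add_mul]
    have e2 : (fun x => v x * act ℝ (r₁' + r₂') w x) =
        fun x => v x * act ℝ r₁' w x + v x * act ℝ r₂' w x := by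
      funext x
      simp [map_add, mul_add]
    rw [e1, e2, h.add _ _ ((bdd_act r₁ hv).mul hw) ((bdd_act r₂ hv).mul hw),
      h.add _ _ (hv.mul (bdd_act r₁' hw)) (hv.mul (bdd_act r₂' hw)), h₁' v w hv hw, h₂' v w hv hw]
  | single g c =>
    refine ⟨AddMonoidAlgebra.single (-g) c, fun v w hv hw => ?_⟩
    have e1 : (fun x => act ℝ (AddMonoidAlgebra.single g c) v x * w x) =
        fun x => c * (v (x - g) * w x) := by
      funext x
      rw [act_single]
      ring
    have e2 : (fun x => v x * act ℝ (AddMonoidAlgebra.single (-g) c) w x) =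
        fun x => c * (v x * w (x + g)) := by
      funext x
      rw [act_single, sub_neg_eq_add]
      ring
    have hb : Bdd (fun x => v x * w (x + g)) := hv.mul (hw.comp _)
    rw [e1, e2, h.smul _ _ ((hv.comp _).mul hw), h.smul _ _ hb]
    congr 1
    have := h.shift (-g) (fun x => v x * w (x + g)) hb
    rw [← this]
    congr 1
    funext x
    simp [sub_eq_add_neg]

/-- If a second application vanishes in mean square, so does the first. -/
lemma sq_step {M : (G → ℝ) → ℝ} (h : IsMean M) (r : AddMonoidAlgebra ℝ G) {v : G → ℝ} (hv : Bdd v)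
    (h0 : M (fun x => act ℝ r (act ℝ r v) x ^ 2) = 0) : M (fun x => act ℝ r v x ^ 2) = 0 := by
  obtain ⟨r', hr'⟩ := exists_adjoint h r
  have hrv := bdd_act r hv
  have hrrv := bdd_act r hrv
  set w : G → ℝ := act ℝ r' (act ℝ r v) with hw
  have hwb : Bdd w := bdd_act r' hrv
  have h1 : M (fun x => act ℝ r v x ^ 2) = M (fun x => v x * w x) := by
    have := hr' v (act ℝ r v) hv hrv
    rw [← this]
    congr 1
    funext x
    ring
  have h2 : M (fun x => w x ^ 2) = 0 := by
    have h3 := hr' (act ℝ r v) (act ℝ r (act ℝ r v)) hrv hrrv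
    have hcomm : act ℝ r' (act ℝ r (act ℝ r v)) = act ℝ r w := by
      rw [hw, ← Module.End.mul_apply, ← map_mul, mul_comm, map_mul, Module.End.mul_apply]
    rw [hcomm] at h3
    have h4 := hr' w (act ℝ r v) hwb hrv
    have h5 : M (fun x => w x ^ 2) = M (fun x => w x * act ℝ r' (act ℝ r v) x) := by
      congr 1
      funext x
      rw [sq]
    rw [h5, ← h4]
    have h6 : M (fun x => act ℝ r w x * act ℝ r v x) = M (fun x => act ℝ r v x * act ℝ r w x) := by
      congr 1
      funext x
      ring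
    rw [h6, ← h3]
    rw [← h0]
    congr 1
    funext x
    rw [sq]
  have h3 := h.mul_le_of_sq_zero hv hwb h2
  have h4 : 0 ≤ M (fun x => act ℝ r v x ^ 2) :=
    h.nonneg _ (by simpa [sq] using hrv.mul hrv) (fun x => sq_nonneg _)
  rw [← h1] at h3
  exact le_antisymm h3 h4

/-- A nilpotent operator on a bounded function vanishes in mean square. -/
theorem sq_zero_of_pow {M : (G → ℝ) → ℝ} (h : IsMean M) (r : AddMonoidAlgebra ℝ G) {c : G → ℝ}
    (hc : Bdd c) (k : ℕ) (hk : act ℝ (r ^ k) c = 0) : M (fun x => act ℝ r c x ^ 2) = 0 := by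
  have step : ∀ j : ℕ, M (fun x => act ℝ (r ^ (j + 1)) c x ^ 2) = 0 →
      M (fun x => act ℝ r c x ^ 2) = 0 := by
    intro j
    induction j with
    | zero =>
      intro h0
      simpa using h0
    | succ j ih =>
      intro h0
      apply ih
      have e1 : act ℝ r (act ℝ (r ^ j) c) = act ℝ (r ^ (j + 1)) c := by
        rw [pow_succ', map_mul, Module.End.mul_apply]
      have e2 : act ℝ r (act ℝ (r ^ (j + 1)) c) = act ℝ (r ^ (j + 1 + 1)) c := by
        rw [pow_succ' r (j + 1), map_mul, Module.End.mul_apply]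
      rw [← e1]
      apply sq_step h r (bdd_act (r ^ j) hc)
      rw [e1, e2]
      exact h0
  rcases Nat.eq_zero_or_pos k with rfl | hpos
  · have h1 : c = 0 := by simpa using hk
    have h2 : (fun x => act ℝ r c x ^ 2) = fun _ => 0 := by
      funext x
      rw [h1, map_zero]
      simp
    rw [h2]
    exact h.zero
  · obtain ⟨j, rfl⟩ : ∃ j, k = j + 1 := ⟨k - 1, by omega⟩
    apply step j
    rw [hk]
    simpa using h.zero

end act

lemma finite_quot' [Module.Finite ℤ G] {n : ℕ} (hn : 0 < n) :
    Finite (G ⧸ (nsmulAddMonoidHom (α := G) n).range) := by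
  have hfin : Module.Finite ℤ (G ⧸ (nsmulAddMonoidHom (α := G) n).range) :=
    Module.Finite.of_surjective (QuotientAddGroup.mk' _).toIntLinearMap
      (QuotientAddGroup.mk'_surjective _)
  apply Module.finite_of_fg_torsion
  intro x
  obtain ⟨g, rfl⟩ := QuotientAddGroup.mk_surjective x
  refine ⟨⟨(n : ℤ), ?_⟩, ?_⟩
  · apply mem_nonZeroDivisors_of_ne_zero
    exact_mod_cast hn.ne'
  · show (n : ℤ) • (QuotientAddGroup.mk g : G ⧸ (nsmulAddMonoidHom (α := G) n).range) = 0
    rw [natCast_zsmul, ← QuotientAddGroup.mk_nsmul]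
    exact (QuotientAddGroup.eq_zero_iff _).2 ⟨g, rfl⟩

open Classical in
/-- A set of mean zero misses a translate of any finite window along multiples of `n`. -/
theorem exists_window [Module.Finite ℤ G] {M : (G → ℝ) → ℝ} (h : IsMean M) {n : ℕ} (hn : 0 < n)
    {Def : Set G} (hDef : M (fun x => if x ∈ Def then 1 else 0) = 0) (W : Finset G) :
    ∃ v : G, ∀ w ∈ W, n • v + w ∉ Def := by
  by_contra hcon
  push Not at hcon
  have hfin := finite_quot' (G := G) hn
  let _ := Fintype.ofFinite (G ⧸ (nsmulAddMonoidHom (α := G) n).range)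
  set I : G → ℝ := fun x => if x ∈ Def then 1 else 0 with hI
  have hIb : Bdd I := by
    refine ⟨1, fun x => ?_⟩
    simp only [hI]
    split_ifs <;> simp
  have hI0 : ∀ x, 0 ≤ I x := by
    intro x
    simp only [hI]
    split_ifs <;> simp
  let R : (G ⧸ (nsmulAddMonoidHom (α := G) n).range) → G := fun q => Quotient.out q
  let u : (G ⧸ (nsmulAddMonoidHom (α := G) n).range) → G → G → ℝ := fun q w x => I (x + (w - R q))
  have hcover : ∀ x, (1 : ℝ) ≤ ∑ q, ∑ w ∈ W, u q w x := by
    intro x
    set q0 : G ⧸ (nsmulAddMonoidHom (α := G) n).range := QuotientAddGroup.mk x with hq0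
    have h1 : (QuotientAddGroup.mk (R q0) : G ⧸ (nsmulAddMonoidHom (α := G) n).range) =
        QuotientAddGroup.mk x := Quotient.out_eq q0
    obtain ⟨v, hv⟩ := QuotientAddGroup.eq.1 h1
    have hv' : x - R q0 = n • v := by
      have : n • v = -R q0 + x := hv
      rw [this]
      abel
    obtain ⟨w, hw, hwD⟩ := hcon v
    have h2 : u q0 w x = 1 := by
      simp only [u, hI]
      have : x + (w - R q0) = n • v + w := by
        rw [← hv']
        abel
      rw [this, if_pos hwD]
    have h3 : u q0 w x ≤ ∑ w ∈ W, u q0 w x :=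
      Finset.single_le_sum (f := fun w => u q0 w x) (fun i _ => hI0 _) hw
    have h4 : ∑ w ∈ W, u q0 w x ≤ ∑ q, ∑ w ∈ W, u q w x :=
      Finset.single_le_sum (f := fun q => ∑ w ∈ W, u q w x)
        (fun i _ => Finset.sum_nonneg fun j _ => hI0 _) (Finset.mem_univ q0)
    linarith
  have hsb : ∀ q w, Bdd (u q w) := fun q w => hIb.comp _
  have hsum : M (fun x => ∑ q, ∑ w ∈ W, u q w x) = 0 := by
    rw [h.sum Finset.univ (fun q x => ∑ w ∈ W, u q w x)
      (fun q _ => Bdd.sum W _ (fun w _ => hsb q w))]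
    refine Finset.sum_eq_zero fun q _ => ?_
    rw [h.sum W (fun w x => u q w x) (fun w _ => hsb q w)]
    refine Finset.sum_eq_zero fun w _ => ?_
    have := h.shift (w - R q) I hIb
    show M (fun x => I (x + (w - R q))) = 0
    rw [this]
    exact hDef
  have hmono := h.mono (Bdd.const (G := G) 1)
    (Bdd.sum Finset.univ (fun q x => ∑ w ∈ W, u q w x)
      (fun q _ => Bdd.sum W _ (fun w _ => hsb q w))) hcover
  rw [h.const, hsum] at hmono
  linarith

end Vale.Agent.Lib.P043.PQ
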