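import Vale.Agent.Lib.P043.Grid

/-!
Rectangles for tiles of size `p * q`, with `p` and `q` distinct primes.
-/

namespace Vale.Agent.Lib.P043.PQ

open Finset
open Vale.Agent.Lib.P043

variable {G : Type*} [AddCommGroup G]

/-- `k` is divisible by `p` and not by `q`. -/
structure PType (p q k : ℕ) : Prop where
  dvd : p ∣ k
  ndvd : ¬ q ∣ k

/-- Every element of the group is uniquely an element of `A` plus an element of `F`. -/
def IsTile (F : Finset G) (A : Set G) : Prop := ∀ g, ∃! f, f ∈ F ∧ g - f ∈ A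

open Classical in
/-- The integer indicator of a set. -/
noncomputable def ind (A : Set G) : G → ℤ := fun x => if x ∈ A then 1 else 0

omit [AddCommGroup G] in
lemma ind_eq_or (A : Set G) (x : G) : ind A x = 0 ∨ ind A x = 1 := by
  classical
  unfold ind
  split_ifs <;> simp

open Classical in
lemma T_ind (F : Finset G) (A : Set G) (k : ℕ) (x : G) :
    T F k (ind A) x = ((F.filter (fun f => x - k • f ∈ A)).card : ℤ) := by
  rw [T_apply, Finset.card_filter]
  push_cast
  refine Finset.sum_congr rfl fun f _ => ?_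
  simp [ind]

lemma IsTile.isTF {F : Finset G} {A : Set G} (h : IsTile F A) : IsTF F (ind A) := by
  classical
  refine ⟨ind_eq_or A, fun g => ?_⟩
  rw [T_ind]
  obtain ⟨f, ⟨hf, hfA⟩, huniq⟩ := h g
  have : F.filter (fun f => g - (1 : ℕ) • f ∈ A) = {f} := by
    ext x
    simp only [Finset.mem_filter, Finset.mem_singleton, one_smul]
    constructor
    · rintro ⟨hx, hxA⟩
      exact huniq x ⟨hx, hxA⟩
    · rintro rfl
      exact ⟨hf, hfA⟩
  rw [this]
  simp

/-- Counting lemma: rows divisible by `p`, columns divisible by `q`, total `p * q`. -/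
lemma rect_of_counts {α β : Type*} [DecidableEq α] [DecidableEq β] (F₁ : Finset α) (F₂ : Finset β)
    (R : α → β → Prop) [∀ a b, Decidable (R a b)] {p q : ℕ} (hp : 0 < p) (hq : 0 < q)
    (hrow : ∀ g ∈ F₂, p ∣ (F₁.filter (fun f => R f g)).card)
    (hcol : ∀ f ∈ F₁, q ∣ (F₂.filter (fun g => R f g)).card)
    (hW : ((F₁ ×ˢ F₂).filter (fun z => R z.1 z.2)).card = p * q) :
    (F₁.filter (fun f => ∃ g ∈ F₂, R f g)).card = p ∧
    (F₂.filter (fun g => ∃ f ∈ F₁, R f g)).card = q ∧
    ∀ f ∈ F₁, ∀ g ∈ F₂, (R f g ↔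
      f ∈ F₁.filter (fun f => ∃ g ∈ F₂, R f g) ∧ g ∈ F₂.filter (fun g => ∃ f ∈ F₁, R f g)) := by
  classical
  set W := (F₁ ×ˢ F₂).filter (fun z => R z.1 z.2) with hWdef
  set T := F₁.filter (fun f => ∃ g ∈ F₂, R f g) with hT
  set S := F₂.filter (fun g => ∃ f ∈ F₁, R f g) with hS
  have e1 : W.card = ∑ g ∈ F₂, (F₁.filter (fun f => R f g)).card := by
    rw [hWdef, Finset.card_filter, Finset.sum_product, Finset.sum_comm]
    refine Finset.sum_congr rfl fun g _ => ?_
    rw [Finset.card_filter]
  have e2 : W.card = ∑ f ∈ F₁, (F₂.filter (fun g => R f g)).card := by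
    rw [hWdef, Finset.card_filter, Finset.sum_product]
    refine Finset.sum_congr rfl fun f _ => ?_
    rw [Finset.card_filter]
  have hScard : S.card * p ≤ p * q := by
    rw [← hW, e1]
    calc S.card * p = ∑ _g ∈ S, p := by simp
      _ ≤ ∑ g ∈ S, (F₁.filter (fun f => R f g)).card := by
          refine Finset.sum_le_sum fun g hg => ?_
          obtain ⟨hg1, f, hf, hfg⟩ := Finset.mem_filter.1 hg
          refine Nat.le_of_dvd (Finset.card_pos.2 ⟨f, Finset.mem_filter.2 ⟨hf, hfg⟩⟩) (hrow g hg1)
      _ ≤ ∑ g ∈ F₂, (F₁.filter (fun f => R f g)).card :=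
          Finset.sum_le_sum_of_subset (Finset.filter_subset _ _)
  have hTcard : T.card * q ≤ p * q := by
    rw [← hW, e2]
    calc T.card * q = ∑ _f ∈ T, q := by simp
      _ ≤ ∑ f ∈ T, (F₂.filter (fun g => R f g)).card := by
          refine Finset.sum_le_sum fun f hf => ?_
          obtain ⟨hf1, g, hg, hfg⟩ := Finset.mem_filter.1 hf
          refine Nat.le_of_dvd (Finset.card_pos.2 ⟨g, Finset.mem_filter.2 ⟨hg, hfg⟩⟩) (hcol f hf1)
      _ ≤ ∑ f ∈ F₁, (F₂.filter (fun g => R f g)).card :=
          Finset.sum_le_sum_of_subset (Finset.filter_subset _ _)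
  have hS' : S.card ≤ q := by
    have : S.card * p ≤ q * p := by rwa [mul_comm q p]
    exact Nat.le_of_mul_le_mul_right this hp
  have hT' : T.card ≤ p := Nat.le_of_mul_le_mul_right hTcard hq
  have hsub : W ⊆ T ×ˢ S := by
    intro z hz
    obtain ⟨hz1, hz2⟩ := Finset.mem_filter.1 hz
    obtain ⟨hz11, hz12⟩ := Finset.mem_product.1 hz1
    exact Finset.mem_product.2 ⟨Finset.mem_filter.2 ⟨hz11, z.2, hz12, hz2⟩,
      Finset.mem_filter.2 ⟨hz12, z.1, hz11, hz2⟩⟩
  have hprod : p * q ≤ T.card * S.card := by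
    rw [← hW, ← Finset.card_product]
    exact Finset.card_le_card hsub
  have hTeq : T.card = p := by
    by_contra hne
    have hlt : T.card < p := lt_of_le_of_ne hT' hne
    have : T.card * S.card < p * q := by
      calc T.card * S.card ≤ T.card * q := Nat.mul_le_mul_left _ hS'
        _ < p * q := Nat.mul_lt_mul_of_pos_right hlt hq
    omega
  have hSeq : S.card = q := by
    by_contra hne
    have hlt : S.card < q := lt_of_le_of_ne hS' hne
    have : T.card * S.card < p * q := by
      rw [hTeq]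
      exact Nat.mul_lt_mul_of_pos_left hlt hp
    omega
  refine ⟨hTeq, hSeq, fun f hf g hg => ⟨fun h => ?_, fun h => ?_⟩⟩
  · exact ⟨Finset.mem_filter.2 ⟨hf, g, hg, h⟩, Finset.mem_filter.2 ⟨hg, f, hf, h⟩⟩
  · have hEq : W = T ×ˢ S := by
      apply Finset.eq_of_subset_of_card_le hsub
      rw [Finset.card_product, hTeq, hSeq, hW]
    have : (f, g) ∈ W := by
      rw [hEq]
      exact Finset.mem_product.2 h
    exact (Finset.mem_filter.1 this).2

/-- The hypotheses on a tile of size `p * q`. -/
structure Setup (F : Finset G) (A : Set G) (p q : ℕ) : Prop where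
  hp : p.Prime
  hq : q.Prime
  hne : p ≠ q
  card : F.card = p * q
  tile : IsTile F A

namespace Setup

variable {F : Finset G} {A : Set G} {p q k k' : ℕ}

lemma swap (S : Setup F A p q) : Setup F A q p :=
  ⟨S.hq, S.hp, S.hne.symm, by rw [S.card, mul_comm], S.tile⟩

lemma one_lt_card (S : Setup F A p q) : 1 < F.card := by
  rw [S.card]
  have := S.hp.one_lt
  have := S.hq.one_lt
  nlinarith

lemma nodvd (S : Setup F A p q) : ¬ p ∣ q := fun h =>
  S.hne ((Nat.prime_dvd_prime_iff_eq S.hp S.hq).1 h)

lemma coprime_card (S : Setup F A p q) {u : ℕ} (h1 : ¬ p ∣ u) (h2 : ¬ q ∣ u) :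
    Nat.Coprime u F.card := by
  rw [S.card]
  apply Nat.Coprime.mul_right
  · exact ((Nat.Prime.coprime_iff_not_dvd S.hp).2 h1).symm
  · exact ((Nat.Prime.coprime_iff_not_dvd S.hq).2 h2).symm

lemma coprime_add (S : Setup F A p q) (hk : PType p q k) (hk' : PType q p k') :
    Nat.Coprime (k + k') F.card := by
  apply S.coprime_card
  · intro h
    exact hk'.ndvd ((Nat.dvd_add_right hk.dvd).1 h)
  · intro h
    exact hk.ndvd ((Nat.dvd_add_left hk'.dvd).1 h)

lemma T_dvd (S : Setup F A p q) (hk : PType p q k) (x : G) : (p : ℤ) ∣ T F k (ind A) x := by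
  have hk0 : k ≠ 0 := by
    rintro rfl
    exact hk.ndvd (dvd_zero q)
  obtain ⟨e, n, hn, hkn⟩ := Nat.exists_eq_pow_mul_and_not_dvd hk0 p S.hp.ne_one
  have he : 1 ≤ e := by
    by_contra h
    have h0 : e = 0 := by omega
    rw [h0, pow_zero, one_mul] at hkn
    exact hn (hkn ▸ hk.dvd)
  have hqn : ¬ q ∣ n := fun h => hk.ndvd (hkn ▸ Dvd.dvd.mul_left h _)
  rw [hkn]
  exact S.tile.isTF.dvd_of_prime_dvd S.one_lt_card S.hp (by rw [S.card]; exact dvd_mul_right p q) he
    (S.coprime_card hn hqn) x

lemma T_add_eq_one (S : Setup F A p q) (hk : PType p q k) (hk' : PType q p k') (x : G) :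
    T F (k + k') (ind A) x = 1 :=
  S.tile.isTF.dilate S.one_lt_card _ (S.coprime_add hk hk') x

lemma TT_eq (S : Setup F A p q) (hk : PType p q k) (hk' : PType q p k') (x : G) :
    T F k (T F k' (ind A)) x = (p : ℤ) * q := by
  have h := S.tile.isTF
  have hp0 : (0 : ℤ) < p := by exact_mod_cast S.hp.pos
  have hq0 : (0 : ℤ) < q := by exact_mod_cast S.hq.pos
  have hdp : ∀ x, (p : ℤ) ∣ T F k (T F k' (ind A)) x := by
    intro x
    rw [T_comm]
    exact Finset.dvd_sum fun f _ => S.T_dvd hk _
  have hdq : ∀ x, (q : ℤ) ∣ T F k (T F k' (ind A)) x := by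
    intro x
    exact Finset.dvd_sum fun f _ => S.swap.T_dvd hk' _
  have hcop : IsCoprime (p : ℤ) (q : ℤ) := by
    have : Nat.Coprime p q := (Nat.coprime_primes S.hp S.hq).2 S.hne
    exact_mod_cast Nat.isCoprime_iff_coprime.2 this
  have hge : ∀ x, (p * q : ℤ) ≤ T F k (T F k' (ind A)) x := by
    intro x
    have h1 := h.T_T_ge_of_T_add (S.T_add_eq_one hk hk') x
    have h2 : (p * q : ℤ) ∣ T F k (T F k' (ind A)) x := hcop.mul_dvd (hdp x) (hdq x)
    exact Int.le_of_dvd (by omega) h2
  have hsum : ∀ x, T F 1 (T F k (T F k' (ind A))) x = (F.card : ℤ) * (p * q) := by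
    intro x
    rw [T_comm]
    have h1 : T F 1 (T F k' (ind A)) = T F k' (T F 1 (ind A)) := funext (T_comm F _ _ _)
    have h2 : T F 1 (ind A) = fun _ => (1 : ℤ) := funext h.tile
    rw [h1, h2]
    have h3 : T F k' (fun _ => (1 : ℤ)) = fun _ => (F.card : ℤ) := by
      funext y
      rw [T_const, mul_one]
    rw [h3, T_const, S.card]
    push_cast
    ring
  exact h.eq_of_ge _ _ hge hsum x

end Setup

open Classical in
/-- The line through `f` at the point `a` with multiplier `k`. -/
noncomputable def Line (F : Finset G) (A : Set G) (k : ℕ) (a f : G) : Finset G :=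
  F.filter (fun f' => a + k • f - k • f' ∈ A)

lemma mem_Line {F : Finset G} {A : Set G} {k : ℕ} {a f f' : G} :
    f' ∈ Line F A k a f ↔ f' ∈ F ∧ a + k • f - k • f' ∈ A := by
  classical
  simp [Line]

lemma self_mem_Line {F : Finset G} {A : Set G} {k : ℕ} {a f : G} (ha : a ∈ A) (hf : f ∈ F) :
    f ∈ Line F A k a f := by
  rw [mem_Line]
  refine ⟨hf, ?_⟩
  simpa using ha

namespace Setup

variable {F : Finset G} {A : Set G} {p q k k' : ℕ}

open Classical in
/-- The rectangle theorem, based at a point of the tiling. -/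
theorem rect (S : Setup F A p q) (hk : PType p q k) (hk' : PType q p k') {a f g : G} (ha : a ∈ A)
    (hf : f ∈ F) (hg : g ∈ F) :
    (Line F A k a f).card = p ∧ (Line F A k' a g).card = q ∧
    (Line F A k a f ∩ Line F A k' a g).card = 1 ∧
    ∀ f' ∈ F, ∀ g' ∈ F, (a + k • f + k' • g - k • f' - k' • g' ∈ A ↔
      f' ∈ Line F A k a f ∧ g' ∈ Line F A k' a g) := by
  set x := a + k • f + k' • g with hx
  let R : G → G → Prop := fun f' g' => x - k • f' - k' • g' ∈ A
  have hrow : ∀ g' ∈ F, p ∣ (F.filter (fun f' => R f' g')).card := by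
    intro g' _
    have h1 := S.T_dvd hk (x - k' • g')
    rw [T_ind] at h1
    have h2 : (F.filter (fun f' => x - k' • g' - k • f' ∈ A)) =
        F.filter (fun f' => R f' g') := by
      refine Finset.filter_congr fun f' _ => ?_
      have : x - k' • g' - k • f' = x - k • f' - k' • g' := by abel
      simp only [R, this]
    rw [h2] at h1
    exact_mod_cast h1
  have hcol : ∀ f' ∈ F, q ∣ (F.filter (fun g' => R f' g')).card := by
    intro f' _
    have h1 := S.swap.T_dvd hk' (x - k • f')
    rw [T_ind] at h1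
    exact_mod_cast h1
  have hW : ((F ×ˢ F).filter (fun z => R z.1 z.2)).card = p * q := by
    have h1 := S.TT_eq hk hk' x
    have h2 : T F k (T F k' (ind A)) x =
        (((F ×ˢ F).filter (fun z => R z.1 z.2)).card : ℤ) := by
      rw [Finset.card_filter, Finset.sum_product]
      push_cast
      rw [T_apply]
      refine Finset.sum_congr rfl fun f' _ => ?_
      rw [T_ind, Finset.card_filter]
      push_cast
      refine Finset.sum_congr rfl fun g' _ => ?_
      simp only [R]
    rw [h2] at h1
    exact_mod_cast h1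
  obtain ⟨hTc, hSc, hiff⟩ := rect_of_counts F F R S.hp.pos S.hq.pos hrow hcol hW
  have hRfg : R f g := by
    simp only [R, hx]
    have : a + k • f + k' • g - k • f - k' • g = a := by abel
    rwa [this]
  have hfT : f ∈ F.filter (fun f => ∃ g ∈ F, R f g) := ((hiff f hf g hg).1 hRfg).1
  have hgS : g ∈ F.filter (fun g => ∃ f ∈ F, R f g) := ((hiff f hf g hg).1 hRfg).2
  have hLT : Line F A k a f = F.filter (fun f => ∃ g ∈ F, R f g) := by
    ext f'
    rw [mem_Line]
    constructor
    · rintro ⟨hf', hfA⟩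
      refine Finset.mem_filter.2 ⟨hf', g, hg, ?_⟩
      simp only [R, hx]
      have : a + k • f + k' • g - k • f' - k' • g = a + k • f - k • f' := by abel
      rwa [this]
    · intro hf'
      have hf'F := (Finset.mem_filter.1 hf').1
      refine ⟨hf'F, ?_⟩
      have h3 : R f' g := (hiff f' hf'F g hg).2 ⟨hf', hgS⟩
      simp only [R, hx] at h3
      have : a + k • f + k' • g - k • f' - k' • g = a + k • f - k • f' := by abel
      rwa [this] at h3
  have hLS : Line F A k' a g = F.filter (fun g => ∃ f ∈ F, R f g) := by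
    ext g'
    rw [mem_Line]
    constructor
    · rintro ⟨hg', hgA⟩
      refine Finset.mem_filter.2 ⟨hg', f, hf, ?_⟩
      simp only [R, hx]
      have : a + k • f + k' • g - k • f - k' • g' = a + k' • g - k' • g' := by abel
      rwa [this]
    · intro hg'
      have hg'F := (Finset.mem_filter.1 hg').1
      refine ⟨hg'F, ?_⟩
      have h3 : R f g' := (hiff f hf g' hg'F).2 ⟨hfT, hg'⟩
      simp only [R, hx] at h3
      have : a + k • f + k' • g - k • f - k' • g' = a + k' • g - k' • g' := by abel
      rwa [this] at h3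
  refine ⟨by rw [hLT]; exact hTc, by rw [hLS]; exact hSc, ?_, fun f' hf' g' hg' => ?_⟩
  · -- the diagonal
    have h1 := S.T_add_eq_one hk hk' x
    rw [T_ind] at h1
    have h2 : (Line F A k a f ∩ Line F A k' a g) = F.filter (fun h => x - (k + k') • h ∈ A) := by
      ext h
      rw [Finset.mem_inter, hLT, hLS, Finset.mem_filter (s := F) (p := fun h => x - (k + k') • h ∈ A)]
      constructor
      · rintro ⟨h3, h4⟩
        have hF := (Finset.mem_filter.1 h3).1
        refine ⟨hF, ?_⟩
        have h5 : R h h := (hiff h hF h hF).2 ⟨h3, h4⟩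
        simp only [R] at h5
        rw [add_smul]
        have : x - (k • h + k' • h) = x - k • h - k' • h := by abel
        rwa [this]
      · rintro ⟨hF, h3⟩
        have h5 : R h h := by
          simp only [R]
          rw [add_smul] at h3
          have : x - k • h - k' • h = x - (k • h + k' • h) := by abel
          rwa [this]
        exact (hiff h hF h hF).1 h5
    rw [h2]
    exact_mod_cast h1
  · rw [hLT, hLS]
    exact hiff f' hf' g' hg'

/-- An edge in one direction does not change the lines in the other direction. -/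
lemma line_eq_of_edge (S : Setup F A p q) (hk : PType p q k) (hk' : PType q p k') {a b f f' g : G}
    (ha : a ∈ A) (hb : b ∈ A) (hf : f ∈ F) (hf' : f' ∈ F) (hg : g ∈ F)
    (hab : b = a + k • f - k • f') : Line F A k' a g = Line F A k' b g := by
  ext g'
  by_cases hg' : g' ∈ F
  · have h1 := (S.rect hk hk' ha hf hg).2.2.2 f' hf' g' hg'
    have h2 := (S.rect hk hk' hb hf' hg).2.2.2 f' hf' g' hg'
    have hm1 : f' ∈ Line F A k a f := mem_Line.2 ⟨hf', by rwa [← hab]⟩
    have hm2 : f' ∈ Line F A k b f' := self_mem_Line hb hf'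
    have he : b + k • f' + k' • g - k • f' - k' • g' = a + k • f + k' • g - k • f' - k' • g' := by
      rw [hab]
      abel
    rw [he] at h2
    constructor
    · intro h
      exact (h2.1 (h1.2 ⟨hm1, h⟩)).2
    · intro h
      exact (h1.1 (h2.2 ⟨hm2, h⟩)).2
  · constructor
    · intro h
      exact absurd (mem_Line.1 h).1 hg'
    · intro h
      exact absurd (mem_Line.1 h).1 hg'

end Setup

end Vale.Agent.Lib.P043.PQ
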